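import Vale.Agent.P369.H400G.Ptr

/-!
P369 (helper632): ampliations `W ⊗ 1`, `1 ⊗ W` of bounded operators to the space of both groups
of modes, and slices of vectors.
-/

set_option linter.all false

namespace Vale.Agent.P369H632

open scoped InnerProductSpace ENNReal Topology ComplexOrder
open Vale.Agent.P369 Vale.Agent.P369.Sys Vale.Agent.P369Y

noncomputable section

variable {H K : Type} [NormedAddCommGroup H] [InnerProductSpace ℂ H] [CompleteSpace H]
  [NormedAddCommGroup K] [InnerProductSpace ℂ K] [CompleteSpace K] {ι κ : Type}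

open ContinuousLinearMap (adjoint)

/-- `t` is a tensor product map -/
structure IsT (t : H → H → K) : Prop where
  inner : ∀ a b c d, ⟪t a b, t c d⟫_ℂ = ⟪a, c⟫_ℂ * ⟪b, d⟫_ℂ
  total : ∀ v : K, (∀ a b, ⟪t a b, v⟫_ℂ = 0) → v = 0

theorem exists_nb (H : Type) [NormedAddCommGroup H] [InnerProductSpace ℂ H] [CompleteSpace H] :
    ∃ (ι : Type) (e : ι → H), IsNumberBasis e := by
  obtain ⟨w, b, hb⟩ := exists_hilbertBasis ℂ H
  refine ⟨w, b, b.orthonormal, ?_⟩
  have := b.dense_span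
  rw [Submodule.dense_iff_topologicalClosure_eq_top]
  exact this

variable {t : H → H → K}

namespace IsT

theorem ext (hT : IsT t) {v w : K} (h : ∀ a b, ⟪t a b, v⟫_ℂ = ⟪t a b, w⟫_ℂ) : v = w := by
  rw [← sub_eq_zero]
  apply hT.total
  intro a b
  rw [inner_sub_right, h, sub_self]

/-- the flipped tensor map -/
theorem swap (hT : IsT t) : IsT (fun a b => t b a) :=
  ⟨fun a b c d => by rw [hT.inner, mul_comm], fun v h => hT.total v fun a b => h b a⟩

theorem add_left (hT : IsT t) (a a' b : H) : t (a + a') b = t a b + t a' b :=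
  Ptr.t_add_left hT.inner a a' b

theorem add_right (hT : IsT t) (a b b' : H) : t a (b + b') = t a b + t a b' :=
  Ptr.t_add_right hT.inner a b b'

theorem smul_left (hT : IsT t) (c : ℂ) (a b : H) : t (c • a) b = c • t a b :=
  Ptr.t_smul_left hT.inner c a b

theorem smul_right (hT : IsT t) (c : ℂ) (a b : H) : t a (c • b) = c • t a b :=
  Ptr.t_smul_right hT.inner c a b

theorem norm (hT : IsT t) (a b : H) : ‖t a b‖ = ‖a‖ * ‖b‖ := Ptr.norm_t hT.inner a b

theorem zero_left (hT : IsT t) (b : H) : t 0 b = 0 := by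
  rw [← norm_eq_zero, hT.norm, norm_zero, zero_mul]

theorem zero_right (hT : IsT t) (a : H) : t a 0 = 0 := by
  rw [← norm_eq_zero, hT.norm, norm_zero, mul_zero]

theorem sub_left (hT : IsT t) (a a' b : H) : t (a - a') b = t a b - t a' b := by
  rw [eq_sub_iff_add_eq, ← hT.add_left, sub_add_cancel]

theorem sub_right (hT : IsT t) (a b b' : H) : t a (b - b') = t a b - t a b' := by
  rw [eq_sub_iff_add_eq, ← hT.add_right, sub_add_cancel]

/-- `a ↦ a ⊗ b` -/
def tl (hT : IsT t) (b : H) : H →L[ℂ] K := Ptr.tL hT.inner b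

/-- `b ↦ a ⊗ b` -/
def tr (hT : IsT t) (a : H) : H →L[ℂ] K := Ptr.tR hT.inner a

/-- the slice of a joint vector along the vector `b` of the second factor -/
def sl (hT : IsT t) (b : H) : K →L[ℂ] H := adjoint (hT.tl b)

/-- the slice of a joint vector along the vector `a` of the first factor -/
def sr (hT : IsT t) (a : H) : K →L[ℂ] H := adjoint (hT.tr a)

theorem tl_apply (hT : IsT t) (a b : H) : hT.tl b a = t a b := rfl

theorem tr_apply (hT : IsT t) (a b : H) : hT.tr a b = t a b := rfl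

theorem inner_sl (hT : IsT t) (a b : H) (ξ : K) : ⟪a, hT.sl b ξ⟫_ℂ = ⟪t a b, ξ⟫_ℂ := by
  unfold sl
  rw [ContinuousLinearMap.adjoint_inner_right]
  rfl

theorem inner_sr (hT : IsT t) (a b : H) (ξ : K) : ⟪b, hT.sr a ξ⟫_ℂ = ⟪t a b, ξ⟫_ℂ := by
  unfold sr
  rw [ContinuousLinearMap.adjoint_inner_right]
  rfl

theorem inner_sl_left (hT : IsT t) (a b : H) (ξ : K) : ⟪hT.sl b ξ, a⟫_ℂ = ⟪ξ, t a b⟫_ℂ := by
  rw [← inner_conj_symm, hT.inner_sl, inner_conj_symm]

theorem sl_t (hT : IsT t) (a b c : H) : hT.sl b (t a c) = ⟪b, c⟫_ℂ • a := by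
  refine ext_inner_left ℂ fun x => ?_
  rw [hT.inner_sl, hT.inner, inner_smul_right, mul_comm]

theorem sr_t (hT : IsT t) (a b c : H) : hT.sr a (t c b) = ⟪a, c⟫_ℂ • b := by
  refine ext_inner_left ℂ fun x => ?_
  rw [hT.inner_sr, hT.inner, inner_smul_right]

theorem norm_tl_le (hT : IsT t) (b : H) : ‖hT.tl b‖ ≤ ‖b‖ :=
  ContinuousLinearMap.opNorm_le_bound _ (norm_nonneg _) fun a => by
    rw [hT.tl_apply, hT.norm, mul_comm]

theorem norm_tr_le (hT : IsT t) (a : H) : ‖hT.tr a‖ ≤ ‖a‖ :=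
  ContinuousLinearMap.opNorm_le_bound _ (norm_nonneg _) fun b => by
    rw [hT.tr_apply, hT.norm]

theorem norm_sl_le (hT : IsT t) (b : H) : ‖hT.sl b‖ ≤ ‖b‖ := by
  unfold sl
  rw [LinearIsometryEquiv.norm_map]
  exact hT.norm_tl_le b

theorem norm_sr_le (hT : IsT t) (a : H) : ‖hT.sr a‖ ≤ ‖a‖ := by
  unfold sr
  rw [LinearIsometryEquiv.norm_map]
  exact hT.norm_tr_le a

/-- operators that agree on products agree -/
theorem clm_ext (hT : IsT t) {E : Type} [NormedAddCommGroup E] [InnerProductSpace ℂ E]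
    [CompleteSpace E] {A B : K →L[ℂ] E} (h : ∀ a b, A (t a b) = B (t a b)) : A = B := by
  have key : adjoint A = adjoint B := by
    ext x
    apply hT.ext
    intro a b
    rw [ContinuousLinearMap.adjoint_inner_right, ContinuousLinearMap.adjoint_inner_right, h]
  exact ContinuousLinearMap.adjoint.injective key

/-- operators that agree on products of basis vectors agree -/
theorem clm_ext₂ (hT : IsT t) {E : Type} [NormedAddCommGroup E] [InnerProductSpace ℂ E]
    [CompleteSpace E] {a : ι → H} {b : κ → H} (ha : IsNumberBasis a) (hb : IsNumberBasis b)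
    {A B : K →L[ℂ] E} (h : ∀ i j, A (t (a i) (b j)) = B (t (a i) (b j))) : A = B := by
  apply hT.clm_ext
  have a1 : ∀ j x, A (t x (b j)) = B (t x (b j)) := by
    intro j x
    have : A ∘L hT.tl (b j) = B ∘L hT.tl (b j) := P369Y.clm_ext ha fun i => h i j
    exact DFunLike.congr_fun this x
  intro x y
  have : A ∘L hT.tr x = B ∘L hT.tr x := P369Y.clm_ext hb fun j => a1 j x
  exact DFunLike.congr_fun this y

/-- products of bases are bases -/
theorem basis (hT : IsT t) {a : ι → H} {b : κ → H} (ha : IsNumberBasis a)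
    (hb : IsNumberBasis b) : IsNumberBasis fun x : ι × κ => t (a x.1) (b x.2) := by
  classical
  apply isNumberBasis_of_orth
  · rw [orthonormal_iff_ite]
    rintro ⟨x, y⟩ ⟨x', y'⟩
    simp only
    rw [hT.inner, orthonormal_iff_ite.1 ha.1, orthonormal_iff_ite.1 hb.1]
    by_cases h1 : x = x'
    · by_cases h2 : y = y'
      · simp [h1, h2]
      · simp [h1, h2]
    · simp [h1]
  · intro v hv
    have h0 : innerSL ℂ v = (0 : K →L[ℂ] ℂ) := by
      apply hT.clm_ext₂ ha hb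
      intro i j
      rw [innerSL_apply_apply, ← inner_conj_symm, hv (i, j)]
      simp
    have h1 := DFunLike.congr_fun h0 v
    rw [innerSL_apply_apply] at h1
    exact inner_self_eq_zero.1 h1

/-- slices: inner products -/
theorem hasSum_sl (hT : IsT t) {b : κ → H} (hb : IsNumberBasis b) (ξ ζ : K) :
    HasSum (fun j => ⟪hT.sl (b j) ξ, hT.sl (b j) ζ⟫_ℂ) ⟪ξ, ζ⟫_ℂ := by
  obtain ⟨ι, e, he⟩ := exists_nb H
  have h1 := parseval (hT.basis he hb) ξ ζ
  have h2 := (Equiv.hasSum_iff (Equiv.prodComm κ ι)).2 h1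
  refine h2.prod_fiberwise fun j => ?_
  have h3 := parseval he (hT.sl (b j) ξ) (hT.sl (b j) ζ)
  refine h3.congr_fun fun i => ?_
  rw [hT.inner_sl, hT.inner_sl_left]
  rfl

theorem hasSum_sl_sq (hT : IsT t) {b : κ → H} (hb : IsNumberBasis b) (ξ : K) :
    HasSum (fun j => ‖hT.sl (b j) ξ‖ ^ 2) (‖ξ‖ ^ 2) := by
  have h := Complex.hasSum_re (hT.hasSum_sl hb ξ ξ)
  simp only [Ptr.re_inner_self] at h
  exact h

/-! ### the ampliation -/

theorem exists_amp (hT : IsT t) (W : H →L[ℂ] H) (ξ : K) :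
    ∃ v : K, (∀ a b, ⟪t a b, v⟫_ℂ = ⟪t (adjoint W a) b, ξ⟫_ℂ) ∧ ‖v‖ ≤ ‖W‖ * ‖ξ‖ := by
  obtain ⟨ι, e, he⟩ := exists_nb H
  have hs := hT.hasSum_sl_sq he ξ
  have h1 : ∀ j, HasSum (fun i => ‖⟪e i, W (hT.sl (e j) ξ)⟫_ℂ‖ ^ 2)
      (‖W (hT.sl (e j) ξ)‖ ^ 2) := fun j => parseval_sq he _
  have hle : ∀ j, ‖W (hT.sl (e j) ξ)‖ ^ 2 ≤ ‖W‖ ^ 2 * ‖hT.sl (e j) ξ‖ ^ 2 := fun j => by
    rw [← mul_pow]
    exact pow_le_pow_left₀ (norm_nonneg _) (W.le_opNorm _) 2
  have hs2 : Summable fun j => ‖W (hT.sl (e j) ξ)‖ ^ 2 :=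
    Summable.of_nonneg_of_le (fun _ => sq_nonneg _) hle (hs.summable.mul_left _)
  have h2 : Summable fun x : ι × ι => ‖⟪e x.2, W (hT.sl (e x.1) ξ)⟫_ℂ‖ ^ 2 := by
    rw [summable_prod_of_nonneg (fun _ => sq_nonneg _)]
    refine ⟨fun j => (h1 j).summable, ?_⟩
    refine hs2.congr fun j => ?_
    exact ((h1 j).tsum_eq).symm
  obtain ⟨v, hv⟩ := exists_vec (hT.basis he he) (fun x : ι × ι => ⟪e x.1, W (hT.sl (e x.2) ξ)⟫_ℂ)
    ((Equiv.summable_iff (Equiv.prodComm ι ι)).1 (h2.congr fun x => rfl))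
  have key : ∀ a b, ⟪t a b, v⟫_ℂ = ⟪t (adjoint W a) b, ξ⟫_ℂ := by
    intro a b
    have s1 : ∀ i j, ⟪v, t (e i) (e j)⟫_ℂ = ⟪ξ, t (adjoint W (e i)) (e j)⟫_ℂ := by
      intro i j
      have := hv (i, j)
      simp only at this
      rw [← inner_conj_symm, this, ← ContinuousLinearMap.adjoint_inner_left, hT.inner_sl,
        inner_conj_symm]
    have s2 : ∀ j, (innerSL ℂ v) ∘L hT.tl (e j) = (innerSL ℂ ξ) ∘L hT.tl (e j) ∘L adjoint W := by
      intro j
      apply P369Y.clm_ext he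
      intro i
      exact s1 i j
    have s3 : ∀ a j, ⟪v, t a (e j)⟫_ℂ = ⟪ξ, t (adjoint W a) (e j)⟫_ℂ := fun a j =>
      DFunLike.congr_fun (s2 j) a
    have s4 : (innerSL ℂ v) ∘L hT.tr a = (innerSL ℂ ξ) ∘L hT.tr (adjoint W a) := by
      apply P369Y.clm_ext he
      intro j
      exact s3 a j
    have s5 : ⟪v, t a b⟫_ℂ = ⟪ξ, t (adjoint W a) b⟫_ℂ := DFunLike.congr_fun s4 b
    rw [← inner_conj_symm, s5, inner_conj_symm]
  refine ⟨v, key, ?_⟩
  have e1 : ∀ j, hT.sl (e j) v = W (hT.sl (e j) ξ) := by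
    intro j
    refine ext_inner_left ℂ fun x => ?_
    rw [hT.inner_sl, key, ← hT.inner_sl, ContinuousLinearMap.adjoint_inner_left]
  have h3 := hT.hasSum_sl_sq he v
  simp only [e1] at h3
  have h4 : ‖v‖ ^ 2 ≤ ‖W‖ ^ 2 * ‖ξ‖ ^ 2 := hasSum_le hle h3 (hs.mul_left _)
  rw [← mul_pow] at h4
  exact (sq_le_sq₀ (norm_nonneg _) (by positivity)).1 h4

/-- `W ⊗ 1` -/
def amp (hT : IsT t) (W : H →L[ℂ] H) : K →L[ℂ] K :=
  LinearMap.mkContinuous
    { toFun := fun ξ => (hT.exists_amp W ξ).choose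
      map_add' := fun ξ ζ => by
        apply hT.ext
        intro a b
        rw [inner_add_right, ((hT.exists_amp W _).choose_spec.1 a b),
          ((hT.exists_amp W _).choose_spec.1 a b), ((hT.exists_amp W _).choose_spec.1 a b),
          inner_add_right]
      map_smul' := fun c ξ => by
        apply hT.ext
        intro a b
        rw [RingHom.id_apply, inner_smul_right, ((hT.exists_amp W _).choose_spec.1 a b),
          ((hT.exists_amp W _).choose_spec.1 a b), inner_smul_right] } ‖W‖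
    fun ξ => (hT.exists_amp W ξ).choose_spec.2

theorem inner_amp (hT : IsT t) (W : H →L[ℂ] H) (a b : H) (ξ : K) :
    ⟪t a b, hT.amp W ξ⟫_ℂ = ⟪t (adjoint W a) b, ξ⟫_ℂ := (hT.exists_amp W ξ).choose_spec.1 a b

theorem norm_amp_le (hT : IsT t) (W : H →L[ℂ] H) : ‖hT.amp W‖ ≤ ‖W‖ :=
  LinearMap.mkContinuous_norm_le _ (norm_nonneg _) _

theorem amp_t (hT : IsT t) (W : H →L[ℂ] H) (a b : H) : hT.amp W (t a b) = t (W a) b := by
  apply hT.ext
  intro x y
  rw [hT.inner_amp, hT.inner, hT.inner, ContinuousLinearMap.adjoint_inner_left]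

theorem sl_amp (hT : IsT t) (W : H →L[ℂ] H) (b : H) (ξ : K) :
    hT.sl b (hT.amp W ξ) = W (hT.sl b ξ) := by
  refine ext_inner_left ℂ fun x => ?_
  rw [hT.inner_sl, hT.inner_amp, ← hT.inner_sl, ContinuousLinearMap.adjoint_inner_left]

theorem amp_adjoint (hT : IsT t) (W : H →L[ℂ] H) : adjoint (hT.amp W) = hT.amp (adjoint W) := by
  apply hT.clm_ext
  intro a b
  refine ext_inner_right ℂ fun x => ?_
  rw [ContinuousLinearMap.adjoint_inner_left, hT.inner_amp, hT.amp_t]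

theorem amp_comp (hT : IsT t) (W V : H →L[ℂ] H) : hT.amp (W ∘L V) = hT.amp W ∘L hT.amp V := by
  apply hT.clm_ext
  intro a b
  rw [hT.amp_t, ContinuousLinearMap.comp_apply, ContinuousLinearMap.comp_apply, hT.amp_t,
    hT.amp_t]

theorem amp_one (hT : IsT t) : hT.amp (1 : H →L[ℂ] H) = 1 := by
  apply hT.clm_ext
  intro a b
  rw [hT.amp_t]
  rfl

theorem amp_add (hT : IsT t) (W V : H →L[ℂ] H) : hT.amp (W + V) = hT.amp W + hT.amp V := by
  apply hT.clm_ext
  intro a b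
  rw [hT.amp_t, ContinuousLinearMap.add_apply, ContinuousLinearMap.add_apply, hT.amp_t,
    hT.amp_t, hT.add_left]

theorem amp_smul (hT : IsT t) (c : ℂ) (W : H →L[ℂ] H) : hT.amp (c • W) = c • hT.amp W := by
  apply hT.clm_ext
  intro a b
  rw [hT.amp_t, ContinuousLinearMap.smul_apply, ContinuousLinearMap.smul_apply, hT.amp_t,
    hT.smul_left]

theorem amp_sub (hT : IsT t) (W V : H →L[ℂ] H) : hT.amp (W - V) = hT.amp W - hT.amp V := by
  apply hT.clm_ext
  intro a b
  rw [hT.amp_t, ContinuousLinearMap.sub_apply, ContinuousLinearMap.sub_apply, hT.amp_t,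
    hT.amp_t, hT.sub_left]

/-- `1 ⊗ W` -/
def amr (hT : IsT t) (W : H →L[ℂ] H) : K →L[ℂ] K := hT.swap.amp W

theorem amr_t (hT : IsT t) (W : H →L[ℂ] H) (a b : H) : hT.amr W (t a b) = t a (W b) :=
  hT.swap.amp_t W b a

theorem norm_amr_le (hT : IsT t) (W : H →L[ℂ] H) : ‖hT.amr W‖ ≤ ‖W‖ := hT.swap.norm_amp_le W

theorem amr_adjoint (hT : IsT t) (W : H →L[ℂ] H) : adjoint (hT.amr W) = hT.amr (adjoint W) :=
  hT.swap.amp_adjoint W

/-- operators on different factors commute -/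
theorem amp_amr (hT : IsT t) (W V : H →L[ℂ] H) :
    hT.amp W ∘L hT.amr V = hT.amr V ∘L hT.amp W := by
  apply hT.clm_ext
  intro a b
  rw [ContinuousLinearMap.comp_apply, ContinuousLinearMap.comp_apply, hT.amr_t, hT.amp_t,
    hT.amp_t, hT.amr_t]

end IsT

/-- the tensor map of the starting library -/
theorem isT_of_isTens {n : ℕ} {e : Conf n → H} {f : Conf n → Conf n → K} (he : IsNumberBasis e)
    (hf : IsNumberBasis fun x : Conf n × Conf n => f x.1 x.2) (ht : IsTens e f t) : IsT t := by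
  refine ⟨ht.inner_tens he hf, fun v hv => ?_⟩
  apply fext hf
  intro x y
  rw [inner_zero_right, ← ht.basis he hf, hv]

end

end Vale.Agent.P369H632
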