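import Vale.Agent.P369.H632.Dec
import Vale.Agent.P369.H400G.Transfer

/-!
P369 (helper632): the dual channels of a unitary on the joint space, data processing in the two
weighted `ℓ²` norms, and the sum rule for `(N+1) a ρ - N ρ a` under the beam splitter.
-/

set_option linter.all false

namespace Vale.Agent.P369H632

open scoped InnerProductSpace ENNReal Topology ComplexOrder
open Vale.Agent.P369 Vale.Agent.P369.Sys Vale.Agent.P369Y

noncomputable section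

variable {H K : Type} [NormedAddCommGroup H] [InnerProductSpace ℂ H] [CompleteSpace H]
  [NormedAddCommGroup K] [InnerProductSpace ℂ K] [CompleteSpace K] {ι κ γ X Y : Type}

open ContinuousLinearMap (adjoint)

/-- `U† T U` -/
def conjU (U : K ≃ₗᵢ[ℂ] K) (T : K →L[ℂ] K) : K →L[ℂ] K :=
  (U.symm.toContinuousLinearEquiv : K →L[ℂ] K) ∘L T ∘L (U.toContinuousLinearEquiv : K →L[ℂ] K)

theorem conjU_apply (U : K ≃ₗᵢ[ℂ] K) (T : K →L[ℂ] K) (x : K) :
    conjU U T x = U.symm (T (U x)) := rfl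

theorem inner_symm (U : K ≃ₗᵢ[ℂ] K) (x y : K) : ⟪x, U.symm y⟫_ℂ = ⟪U x, y⟫_ℂ := by
  rw [← U.inner_map_map x, U.apply_symm_apply]

theorem inner_symm' (U : K ≃ₗᵢ[ℂ] K) (x y : K) : ⟪U.symm x, y⟫_ℂ = ⟪x, U y⟫_ℂ := by
  rw [← U.inner_map_map _ y, U.apply_symm_apply]

theorem conjU_adjoint (U : K ≃ₗᵢ[ℂ] K) (T : K →L[ℂ] K) : adjoint (conjU U T) = conjU U (adjoint T) := by
  ext x
  refine ext_inner_left ℂ fun y => ?_
  rw [ContinuousLinearMap.adjoint_inner_right, conjU_apply, conjU_apply, inner_symm, inner_symm',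
    ContinuousLinearMap.adjoint_inner_right]

theorem conjU_one (U : K ≃ₗᵢ[ℂ] K) : conjU U 1 = 1 := by
  ext x
  rw [conjU_apply]
  simp

theorem conjU_add (U : K ≃ₗᵢ[ℂ] K) (S T : K →L[ℂ] K) :
    conjU U (S + T) = conjU U S + conjU U T := by
  ext x
  simp [conjU_apply]

theorem conjU_smul (U : K ≃ₗᵢ[ℂ] K) (c : ℂ) (T : K →L[ℂ] K) :
    conjU U (c • T) = c • conjU U T := by
  ext x
  simp [conjU_apply]

variable {t : H → H → K}

/-- the dual channel from the output to the first input -/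
def PhiA (hT : IsT t) (U : K ≃ₗᵢ[ℂ] K) (b : κ → H) (q : κ → ℝ) (W : H →L[ℂ] H) : H →L[ℂ] H :=
  hT.EB b q (conjU U (hT.amp W))

/-- the dual channel from the output to the second input -/
def PhiB (hT : IsT t) (U : K ≃ₗᵢ[ℂ] K) (a : ι → H) (p : ι → ℝ) (W : H →L[ℂ] H) : H →L[ℂ] H :=
  hT.EA a p (conjU U (hT.amp W))

section chan

variable (hT : IsT t) (U : K ≃ₗᵢ[ℂ] K) {a : ι → H} {p : ι → ℝ} {b : κ → H} {q : κ → ℝ}

theorem PhiA_one (hB : Mix b q) : PhiA hT U b q 1 = 1 := by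
  unfold PhiA
  rw [hT.amp_one, conjU_one, hT.EB_one hB]

theorem PhiA_add (hB : Mix b q) (W V : H →L[ℂ] H) :
    PhiA hT U b q (W + V) = PhiA hT U b q W + PhiA hT U b q V := by
  unfold PhiA
  rw [hT.amp_add, conjU_add, hT.EB_add hB]

theorem PhiA_smul (hB : Mix b q) (c : ℂ) (W : H →L[ℂ] H) :
    PhiA hT U b q (c • W) = c • PhiA hT U b q W := by
  unfold PhiA
  rw [hT.amp_smul, conjU_smul, hT.EB_smul hB]

theorem PhiA_adjoint (hB : Mix b q) (W : H →L[ℂ] H) :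
    PhiA hT U b q (adjoint W) = adjoint (PhiA hT U b q W) := by
  unfold PhiA
  rw [← hT.amp_adjoint, ← conjU_adjoint, hT.EB_adjoint hB]

theorem PhiB_one (hA : Mix a p) : PhiB hT U a p 1 = 1 := by
  unfold PhiB IsT.EA
  rw [hT.amp_one, conjU_one, hT.swap.EB_one hA]

theorem PhiB_add (hA : Mix a p) (W V : H →L[ℂ] H) :
    PhiB hT U a p (W + V) = PhiB hT U a p W + PhiB hT U a p V := by
  unfold PhiB IsT.EA
  rw [hT.amp_add, conjU_add, hT.swap.EB_add hA]

theorem PhiB_smul (hA : Mix a p) (c : ℂ) (W : H →L[ℂ] H) :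
    PhiB hT U a p (c • W) = c • PhiB hT U a p W := by
  unfold PhiB IsT.EA
  rw [hT.amp_smul, conjU_smul, hT.swap.EB_smul hA]

theorem PhiB_adjoint (hA : Mix a p) (W : H →L[ℂ] H) :
    PhiB hT U a p (adjoint W) = adjoint (PhiB hT U a p W) := by
  unfold PhiB IsT.EA
  rw [← hT.amp_adjoint, ← conjU_adjoint, hT.swap.EB_adjoint hA]

end chan

/-- the trace pairing of a sliced decomposition -/
theorem Dec.slice_pair (hT : IsT t) {R : K →L[ℂ] K} {w : X → ℝ} {v : X → K} (h : Dec R w v)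
    {g : κ → H} (hg : IsNumberBasis g) {ρ : H →L[ℂ] H}
    (hρ : ∀ φ φ', HasSum (fun l => ⟪t φ (g l), R (t φ' (g l))⟫_ℂ) ⟪φ, ρ φ'⟫_ℂ)
    (W V : H →L[ℂ] H) {S : ℂ}
    (hS : HasSum (fun x => (w x : ℂ) * ⟪hT.amp W (v x), hT.amp V (v x)⟫_ℂ) S) :
    HasSum (fun y : X × κ => (w y.1 : ℂ) *
      ⟪W (hT.sl (g y.2) (v y.1)), V (hT.sl (g y.2) (v y.1))⟫_ℂ) S := by
  have d := h.slice hT hg hρ
  obtain ⟨ι, e, he⟩ := exists_nb H
  have h1 := (d.pair he (s := fun y => W (hT.sl (g y.2) (v y.1)))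
    (u := fun y => V (hT.sl (g y.2) (v y.1))) (d := fun k => adjoint V (e k))
    (z := fun k => adjoint W (e k)) (fun x _ k => by rw [ContinuousLinearMap.adjoint_inner_right])
    (fun x _ k => by rw [ContinuousLinearMap.adjoint_inner_left]) (d.summable_op W)
    (d.summable_op V)).1
  have h2 : HasSum (fun x => (w x : ℂ) * ⟪hT.amp W (v x), hT.amp V (v x)⟫_ℂ)
      (∑' k, ⟪adjoint V (e k), ρ (adjoint W (e k))⟫_ℂ) := by
    refine h1.prod_fiberwise fun x => ?_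
    refine ((hT.hasSum_sl hg (hT.amp W (v x)) (hT.amp V (v x))).mul_left (w x : ℂ)).congr_fun
      fun l => ?_
    rw [hT.sl_amp, hT.sl_amp]
  rw [hS.unique h2]
  exact h1

/-- everything about inputs, unitary and output that is used -/
structure Out (hT : IsT t) (U : K ≃ₗᵢ[ℂ] K) (a : ι → H) (p : ι → ℝ) (b : κ → H) (q : κ → ℝ)
    (c : γ → H) (r : γ → ℝ) : Prop where
  A : Mix a p
  B : Mix b q
  C : Mix c r
  /-- the output in any basis of the traced out factor -/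
  out : ∃ (R : K →L[ℂ] K) (ρ : H →L[ℂ] H),
    Dec R (fun x : ι × κ => p x.1 * q x.2) (fun x => U (t (a x.1) (b x.2))) ∧ Dec ρ r c ∧
    ∀ {μ : Type} {g : μ → H}, IsNumberBasis g → ∀ φ φ',
      HasSum (fun l => ⟪t φ (g l), R (t φ' (g l))⟫_ℂ) ⟪φ, ρ φ'⟫_ℂ

section out

variable {hT : IsT t} {U : K ≃ₗᵢ[ℂ] K} {a : ι → H} {p : ι → ℝ} {b : κ → H} {q : κ → ℝ}
  {c : γ → H} {r : γ → ℝ}

/-- the pairing of bounded operators in the output, in terms of the inputs -/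
theorem Out.pair (h : Out hT U a p b q c r) (W V : H →L[ℂ] H) {S : ℂ}
    (hS : HasSum (fun x : ι × κ => ((p x.1 * q x.2 : ℝ) : ℂ) *
      ⟪hT.amp W (U (t (a x.1) (b x.2))), hT.amp V (U (t (a x.1) (b x.2)))⟫_ℂ) S) :
    HasSum (fun k => (r k : ℂ) * ⟪W (c k), V (c k)⟫_ℂ) S := by
  obtain ⟨R, ρ, hR, hρ, hout⟩ := h.out
  obtain ⟨μ, g, hg⟩ := exists_nb H
  exact (hR.slice hT hg (hout hg)).pair_bdd hρ W V (hR.slice_pair hT hg (hout hg) W V hS)

theorem Out.sq (h : Out hT U a p b q c r) (W : H →L[ℂ] H) :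
    HasSum (fun k => r k * ‖W (c k)‖ ^ 2)
      (∑' x : ι × κ, p x.1 * q x.2 * ‖conjU U (hT.amp W) (t (a x.1) (b x.2))‖ ^ 2) := by
  have h1 := Complex.hasSum_ofReal.2 (hT.summable_sq h.A h.B (conjU U (hT.amp W))).hasSum
  have h2 := h.pair W W (h1.congr_fun fun x => by
    rw [inner_self_eq_norm_sq_to_K, conjU_apply, U.symm.norm_map]
    push_cast
    rfl)
  have h3 := Complex.hasSum_re h2
  rw [Complex.ofReal_re] at h3
  refine h3.congr_fun fun k => ?_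
  rw [Complex.re_ofReal_mul, Ptr.re_inner_self]

/-- the mean in the output -/
theorem Out.mean (h : Out hT U a p b q c r) (W : H →L[ℂ] H) :
    HasSum (fun k => (r k : ℂ) * ⟪c k, W (c k)⟫_ℂ)
      (IsT.mean p q a b t (conjU U (hT.amp W))) := by
  have h1 := hT.hasSum_mean h.A h.B (conjU U (hT.amp W))
  have h2 := h.pair 1 W (h1.congr_fun fun x => by
    rw [hT.amp_one, conjU_apply, inner_symm]
    rfl)
  exact h2

/-- DATA PROCESSING, right form: `Σ p_i ‖(PhiA W - ω) a_i‖² + Σ q_j ‖(PhiB W - ω) b_j‖² + |ω|²` is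
at most `Σ r_k ‖W c_k‖²`, with `ω` the mean of `W` in the output. -/
theorem Out.dp (h : Out hT U a p b q c r) (W : H →L[ℂ] H) :
    (∑' i, p i * ‖PhiA hT U b q W (a i) - IsT.mean p q a b t (conjU U (hT.amp W)) • a i‖ ^ 2) +
      (∑' j, q j * ‖PhiB hT U a p W (b j) -
        IsT.mean p q a b t (conjU U (hT.amp W)) • b j‖ ^ 2) +
      ‖IsT.mean p q a b t (conjU U (hT.amp W))‖ ^ 2 ≤ ∑' k, r k * ‖W (c k)‖ ^ 2 := by
  rw [(h.sq W).tsum_eq]
  exact hT.bessel h.A h.B (conjU U (hT.amp W))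

end out

/-! ### ladder operators -/

variable {n : ℕ} {e : Conf n → H} {f : Conf n → Conf n → K}

/-- `φ` is the annihilation (`τ = true`) or creation operator of mode `m` applied to `ψ` -/
def LW (e : Conf n → H) (τ : Bool) (m : Fin n) (ψ φ : H) : Prop :=
  ∀ x, ⟪op1 e (!τ) m x, ψ⟫_ℂ = ⟪e x, φ⟫_ℂ

theorem WW_left (ht : IsTens e f t) {τ : Bool} {m : Fin n} {ψ φ : H} (h : LW e τ m ψ φ) (χ : H) :
    WW f true τ m (t ψ χ) (t φ χ) := by
  intro x
  rw [inner_opA ht, h, ht]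

theorem WW_right (ht : IsTens e f t) {τ : Bool} {m : Fin n} {ψ φ : H} (h : LW e τ m ψ φ) (χ : H) :
    WW f false τ m (t χ ψ) (t χ φ) := by
  intro x
  rw [inner_opB ht, h, ht]

theorem opK_left (hT : IsT t) (hb : ∀ k l, t (e k) (e l) = f k l) (τ : Bool) (m : Fin n)
    (x : Conf n × Conf n) : opK f true τ m x = t (op1 e τ m x.1) (e x.2) := by
  cases τ
  · show Sys.creA f m x.1 x.2 = t (cre e m x.1) (e x.2)
    unfold Sys.creA cre
    rw [hT.smul_left, hb]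
  · show Sys.annA f m x.1 x.2 = t (ann e m x.1) (e x.2)
    unfold Sys.annA ann
    rw [hT.smul_left, hb]

theorem opK_right (hT : IsT t) (hb : ∀ k l, t (e k) (e l) = f k l) (τ : Bool) (m : Fin n)
    (x : Conf n × Conf n) : opK f false τ m x = t (e x.1) (op1 e τ m x.2) := by
  cases τ
  · show Sys.creB f m x.1 x.2 = t (e x.1) (cre e m x.2)
    unfold Sys.creB cre
    rw [hT.smul_right, hb]
  · show Sys.annB f m x.1 x.2 = t (e x.1) (ann e m x.2)
    unfold Sys.annB ann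
    rw [hT.smul_right, hb]

/-- slices of a ladder relation -/
theorem LW_slice (hT : IsT t) (hb : ∀ k l, t (e k) (e l) = f k l) {τ : Bool} {m : Fin n}
    {ψ φ : K} (h : WW f true τ m ψ φ) (l : Conf n) :
    LW e τ m (hT.sl (e l) ψ) (hT.sl (e l) φ) := by
  intro x
  have h1 := h (x, l)
  rw [opK_left hT hb] at h1
  rw [hT.inner_sl, hT.inner_sl, h1, hb]

/-- operators of the first factor commute with the ladder operators of the second one -/
theorem WW_amp (hT : IsT t) (he : IsNumberBasis e) (hb : ∀ k l, t (e k) (e l) = f k l)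
    {τ : Bool} {m : Fin n} {ψ φ : K} (h : WW f false τ m ψ φ) (W : H →L[ℂ] H) :
    WW f false τ m (hT.amp W ψ) (hT.amp W φ) := by
  intro x
  rw [opK_right hT hb, hT.inner_amp, ← hb, hT.inner_amp]
  have h1 : (innerSL ℂ ψ) ∘L hT.tl (op1 e (!τ) m x.2) = (innerSL ℂ φ) ∘L hT.tl (e x.2) := by
    apply P369Y.clm_ext he
    intro y
    have h2 := h (y, x.2)
    rw [opK_right hT hb] at h2
    change ⟪ψ, t (e y) (op1 e (!τ) m x.2)⟫_ℂ = ⟪φ, t (e y) (e x.2)⟫_ℂ
    rw [← inner_conj_symm, h2, hb, inner_conj_symm]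
  have h3 : ⟪ψ, t (adjoint W (e x.1)) (op1 e (!τ) m x.2)⟫_ℂ = ⟪φ, t (adjoint W (e x.1)) (e x.2)⟫_ℂ :=
    DFunLike.congr_fun h1 (adjoint W (e x.1))
  rw [← inner_conj_symm, h3, inner_conj_symm]

/-- ladder vectors of a state: `u i` is the ladder operator applied to `a i` where `p i ≠ 0` -/
structure Lad (e : Conf n → H) (τ : Bool) (m : Fin n) (a : ι → H) (p : ι → ℝ) (u : ι → H) :
    Prop where
  rel : ∀ i, p i ≠ 0 → LW e τ m (a i) (u i)
  sum : Summable fun i => p i * ‖u i‖ ^ 2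

/-- weighted sums with ladder vectors of the first input -/
theorem cross_lad_A (hT : IsT t) {a : ι → H} {p : ι → ℝ} {b : κ → H} {q : κ → ℝ} (hA : Mix a p)
    (hB : Mix b q) (T : K →L[ℂ] K) {u : ι → H} (hu : Summable fun i => p i * ‖u i‖ ^ 2) :
    HasSum (fun x : ι × κ => ((p x.1 * q x.2 : ℝ) : ℂ) *
      ⟪T (t (a x.1) (b x.2)), t (u x.1) (b x.2)⟫_ℂ)
      (∑' i, (p i : ℂ) * ⟪hT.EB b q T (a i), u i⟫_ℂ) ∧
    Summable fun i => (p i : ℂ) * ⟪hT.EB b q T (a i), u i⟫_ℂ := by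
  have hb1 : Summable fun i => p i * (‖T‖ * ((1 + ‖u i‖ ^ 2) / 2)) := by
    refine ((hA.sum.summable.add hu).mul_left (‖T‖ / 2)).congr fun i => ?_
    ring
  have s1 : Summable fun x : ι × κ => ((p x.1 * q x.2 : ℝ) : ℂ) *
      ⟪T (t (a x.1) (b x.2)), t (u x.1) (b x.2)⟫_ℂ := by
    have s0 : Summable fun x : ι × κ => (p x.1 * (‖T‖ * ((1 + ‖u x.1‖ ^ 2) / 2))) * q x.2 :=
      hb1.mul_of_nonneg hB.sum.summable (fun i => mul_nonneg (hA.nonneg i) (by positivity))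
        hB.nonneg
    refine Summable.of_norm_bounded s0 fun x => ?_
    rw [norm_mul, Complex.norm_real,
      Real.norm_of_nonneg (mul_nonneg (hA.nonneg _) (hB.nonneg _))]
    have b1 : ‖⟪T (t (a x.1) (b x.2)), t (u x.1) (b x.2)⟫_ℂ‖ ≤ ‖T‖ * ((1 + ‖u x.1‖ ^ 2) / 2) := by
      calc ‖⟪T (t (a x.1) (b x.2)), t (u x.1) (b x.2)⟫_ℂ‖
          ≤ ‖T (t (a x.1) (b x.2))‖ * ‖t (u x.1) (b x.2)‖ := norm_inner_le_norm _ _
        _ ≤ (‖T‖ * ‖t (a x.1) (b x.2)‖) * ‖t (u x.1) (b x.2)‖ := by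
            gcongr
            exact T.le_opNorm _
        _ = ‖T‖ * ‖u x.1‖ := by
            rw [hT.norm, hT.norm, hA.norm, hB.norm]; ring
        _ ≤ ‖T‖ * ((1 + ‖u x.1‖ ^ 2) / 2) := by
            gcongr
            nlinarith [sq_nonneg (1 - ‖u x.1‖)]
    calc p x.1 * q x.2 * ‖⟪T (t (a x.1) (b x.2)), t (u x.1) (b x.2)⟫_ℂ‖
        ≤ p x.1 * q x.2 * (‖T‖ * ((1 + ‖u x.1‖ ^ 2) / 2)) :=
          mul_le_mul_of_nonneg_left b1 (mul_nonneg (hA.nonneg _) (hB.nonneg _))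
      _ = _ := by ring
  have h2 : HasSum (fun i => (p i : ℂ) * ⟪hT.EB b q T (a i), u i⟫_ℂ)
      (∑' x : ι × κ, ((p x.1 * q x.2 : ℝ) : ℂ) *
      ⟪T (t (a x.1) (b x.2)), t (u x.1) (b x.2)⟫_ℂ) := by
    refine s1.hasSum.prod_fiberwise fun i => ?_
    have h3 := (hT.hasSum_EB_inner hB T (u i) (a i)).star
    have e1 : star ⟪u i, hT.EB b q T (a i)⟫_ℂ = ⟪hT.EB b q T (a i), u i⟫_ℂ := inner_conj_symm _ _
    rw [e1] at h3
    refine (h3.mul_left (p i : ℂ)).congr_fun fun j => ?_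
    have e2 : star ((q j : ℂ) * ⟪t (u i) (b j), T (t (a i) (b j))⟫_ℂ) =
        (q j : ℂ) * ⟪T (t (a i) (b j)), t (u i) (b j)⟫_ℂ := by
      rw [star_mul', ← inner_conj_symm (T _)]
      congr 1
      exact Complex.conj_ofReal _
    rw [e2]
    push_cast
    ring
  exact ⟨by rw [h2.tsum_eq]; exact s1.hasSum, h2.summable⟩

/-- weighted sums with ladder vectors of the second input -/
theorem cross_lad_B (hT : IsT t) {a : ι → H} {p : ι → ℝ} {b : κ → H} {q : κ → ℝ} (hA : Mix a p)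
    (hB : Mix b q) (T : K →L[ℂ] K) {u : κ → H} (hu : Summable fun j => q j * ‖u j‖ ^ 2) :
    HasSum (fun x : ι × κ => ((p x.1 * q x.2 : ℝ) : ℂ) *
      ⟪T (t (a x.1) (b x.2)), t (a x.1) (u x.2)⟫_ℂ)
      (∑' j, (q j : ℂ) * ⟪hT.EA a p T (b j), u j⟫_ℂ) ∧
    Summable fun j => (q j : ℂ) * ⟪hT.EA a p T (b j), u j⟫_ℂ := by
  obtain ⟨h1, h2⟩ := cross_lad_A hT.swap hB hA T hu
  refine ⟨?_, h2⟩
  have h3 := (Equiv.hasSum_iff (Equiv.prodComm ι κ)).2 h1
  refine h3.congr_fun fun x => ?_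
  simp only [Function.comp, Equiv.prodComm_apply, Prod.fst_swap, Prod.snd_swap]
  rw [mul_comm (p x.1)]

section sumrule

variable {hT : IsT t} {U : K ≃ₗᵢ[ℂ] K} {a : ι → H} {p : ι → ℝ} {b : κ → H} {q : κ → ℝ}
  {c : γ → H} {r : γ → ℝ} {η : ℝ}

/-- the ladder operator of the mode `s` applied to the joint output vector -/
def etaV (η : ℝ) (t : H → H → K) (U : K ≃ₗᵢ[ℂ] K) (a : ι → H) (b : κ → H) (ua : ι → H)
    (ub : κ → H) (s : Bool) (x : ι × κ) : K :=
  U (Mb η s true • t (ua x.1) (b x.2) + Mb η s false • t (a x.1) (ub x.2))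

theorem WW_eta (he : IsNumberBasis e) (hf : IsNumberBasis fun x : Conf n × Conf n => f x.1 x.2)
    (ht : IsTens e f t) (hU : IsBeamSplitter η f U) {τ : Bool} {m : Fin n} {ua : ι → H}
    {ub : κ → H} (ha : Lad e τ m a p ua) (hb : Lad e τ m b q ub) (s : Bool) (x : ι × κ)
    (hx : p x.1 * q x.2 ≠ 0) :
    WW f s τ m (U (t (a x.1) (b x.2))) (etaV η t U a b ua ub s x) := by
  have h1 : p x.1 ≠ 0 := left_ne_zero_of_mul hx
  have h2 : q x.2 ≠ 0 := right_ne_zero_of_mul hx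
  have h3 : ∀ s', WW f s' τ m (t (a x.1) (b x.2))
      (if s' then t (ua x.1) (b x.2) else t (a x.1) (ub x.2)) := by
    intro s'
    cases s'
    · exact WW_right ht (hb.rel _ h2) _
    · exact WW_left ht (ha.rel _ h1) _
  exact WW_bs hf hU h3 s

/-- weighted inner products with the ladder vectors of the output -/
theorem hasSum_eta (hA : Mix a p) (hB : Mix b q) {ua : ι → H} {ub : κ → H}
    (ha : Summable fun i => p i * ‖ua i‖ ^ 2) (hb : Summable fun j => q j * ‖ub j‖ ^ 2)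
    (s : Bool) (T : K →L[ℂ] K) :
    HasSum (fun x : ι × κ => ((p x.1 * q x.2 : ℝ) : ℂ) *
      ⟪T (U (t (a x.1) (b x.2))), etaV η t U a b ua ub s x⟫_ℂ)
      (Mb η s true * (∑' i, (p i : ℂ) * ⟪hT.EB b q (conjU U T) (a i), ua i⟫_ℂ) +
        Mb η s false * (∑' j, (q j : ℂ) * ⟪hT.EA a p (conjU U T) (b j), ub j⟫_ℂ)) := by
  have h1 := (cross_lad_A hT hA hB (conjU U T) ha).1
  have h2 := (cross_lad_B hT hA hB (conjU U T) hb).1
  refine ((h1.mul_left (Mb η s true)).add (h2.mul_left (Mb η s false))).congr_fun fun x => ?_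
  unfold etaV
  rw [← inner_symm' U, ← conjU_apply, inner_add_right, inner_smul_right, inner_smul_right]
  ring

/-- the trace pairing of a bounded operator with a ladder operator, in the output -/
theorem Out.lad (he : IsNumberBasis e) (hf : IsNumberBasis fun x : Conf n × Conf n => f x.1 x.2)
    (ht : IsTens e f t) (hU : IsBeamSplitter η f U) (h : Out hT U a p b q c r) {τ : Bool}
    {m : Fin n} {ua : ι → H} {ub : κ → H} {uc : γ → H} (ha : Lad e τ m a p ua)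
    (hb : Lad e τ m b q ub) (hc : Lad e τ m c r uc) (W : H →L[ℂ] H) :
    HasSum (fun k => (r k : ℂ) * ⟪W (c k), uc k⟫_ℂ)
      (Mb η true true * (∑' i, (p i : ℂ) * ⟪PhiA hT U b q W (a i), ua i⟫_ℂ) +
        Mb η true false * (∑' j, (q j : ℂ) * ⟪PhiB hT U a p W (b j), ub j⟫_ℂ)) := by
  obtain ⟨R, ρ, hR, hρ, hout⟩ := h.out
  have hbas : ∀ k l, t (e k) (e l) = f k l := fun k l => ht.basis he hf k l
  have d := hR.slice hT he (hout he)
  have hw : ∀ x : ι × κ, 0 ≤ p x.1 * q x.2 := hR.nonneg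
  -- norms of the ladder vectors of the output
  have n0 : Summable fun x : ι × κ => p x.1 * q x.2 * ‖etaV η t U a b ua ub true x‖ ^ 2 := by
    have s1 : Summable fun x : ι × κ => (p x.1 * ‖ua x.1‖ ^ 2) * q x.2 :=
      ha.sum.mul_of_nonneg h.B.sum.summable
        (fun i => mul_nonneg (h.A.nonneg i) (sq_nonneg _)) h.B.nonneg
    have s2 : Summable fun x : ι × κ => p x.1 * (q x.2 * ‖ub x.2‖ ^ 2) :=
      h.A.sum.summable.mul_of_nonneg hb.sum h.A.nonneg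
        (fun j => mul_nonneg (h.B.nonneg j) (sq_nonneg _))
    refine Summable.of_nonneg_of_le (fun x => mul_nonneg (hw x) (sq_nonneg _)) (fun x => ?_)
      ((s1.mul_left (2 * ‖Mb η true true‖ ^ 2)).add (s2.mul_left (2 * ‖Mb η true false‖ ^ 2)))
    have b1 : ‖etaV η t U a b ua ub true x‖ ^ 2 ≤ 2 * ‖Mb η true true‖ ^ 2 * ‖ua x.1‖ ^ 2 +
        2 * ‖Mb η true false‖ ^ 2 * ‖ub x.2‖ ^ 2 := by
      unfold etaV
      rw [U.norm_map]
      have b2 : ‖Mb η true true • t (ua x.1) (b x.2) + Mb η true false • t (a x.1) (ub x.2)‖ ≤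
          ‖Mb η true true‖ * ‖ua x.1‖ + ‖Mb η true false‖ * ‖ub x.2‖ := by
        refine (norm_add_le _ _).trans ?_
        rw [norm_smul, norm_smul, hT.norm, hT.norm, h.A.norm, h.B.norm, mul_one, one_mul]
      refine (pow_le_pow_left₀ (norm_nonneg _) b2 2).trans ?_
      nlinarith [sq_nonneg (‖Mb η true true‖ * ‖ua x.1‖ - ‖Mb η true false‖ * ‖ub x.2‖)]
    calc p x.1 * q x.2 * ‖etaV η t U a b ua ub true x‖ ^ 2
        ≤ p x.1 * q x.2 * (2 * ‖Mb η true true‖ ^ 2 * ‖ua x.1‖ ^ 2 +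
        2 * ‖Mb η true false‖ ^ 2 * ‖ub x.2‖ ^ 2) := mul_le_mul_of_nonneg_left b1 (hw x)
      _ = _ := by ring
  -- the sum over the slices
  have n1 : ∀ x : ι × κ, HasSum (fun l => p x.1 * q x.2 *
      ‖hT.sl (e l) (etaV η t U a b ua ub true x)‖ ^ 2)
      (p x.1 * q x.2 * ‖etaV η t U a b ua ub true x‖ ^ 2) := fun x =>
    (hT.hasSum_sl_sq he _).mul_left _
  have sU : Summable fun y : (ι × κ) × Conf n => p y.1.1 * q y.1.2 *
      ‖hT.sl (e y.2) (etaV η t U a b ua ub true y.1)‖ ^ 2 := by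
    rw [summable_prod_of_nonneg (fun y => mul_nonneg (hw _) (by positivity))]
    exact ⟨fun x => (n1 x).summable, n0.congr fun x => (n1 x).tsum_eq.symm⟩
  have hz : ∀ y : (ι × κ) × Conf n, p y.1.1 * q y.1.2 ≠ 0 → ∀ k,
      ⟪W (hT.sl (e y.2) (U (t (a y.1.1) (b y.1.2)))), e k⟫_ℂ =
      ⟪hT.sl (e y.2) (U (t (a y.1.1) (b y.1.2))), adjoint W (e k)⟫_ℂ := fun y _ k => by
    rw [ContinuousLinearMap.adjoint_inner_right]
  have hu : ∀ y : (ι × κ) × Conf n, p y.1.1 * q y.1.2 ≠ 0 → ∀ k,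
      ⟪e k, hT.sl (e y.2) (etaV η t U a b ua ub true y.1)⟫_ℂ =
      ⟪op1 e (!τ) m k, hT.sl (e y.2) (U (t (a y.1.1) (b y.1.2)))⟫_ℂ := fun y hy k =>
    (LW_slice hT hbas (WW_eta he hf ht hU ha hb true y.1 hy) y.2 k).symm
  have p1 := (d.pair he hz hu (d.summable_op W) sU).1
  have p2 : HasSum (fun x : ι × κ => ((p x.1 * q x.2 : ℝ) : ℂ) *
      ⟪hT.amp W (U (t (a x.1) (b x.2))), etaV η t U a b ua ub true x⟫_ℂ)
      (∑' k, ⟪op1 e (!τ) m k, ρ (adjoint W (e k))⟫_ℂ) := by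
    refine p1.prod_fiberwise fun x => ?_
    refine ((hT.hasSum_sl he (hT.amp W (U (t (a x.1) (b x.2))))
      (etaV η t U a b ua ub true x)).mul_left ((p x.1 * q x.2 : ℝ) : ℂ)).congr_fun fun l => ?_
    rw [hT.sl_amp]
  have p3 := (hρ.pair he (s := fun k => W (c k)) (u := uc) (d := fun k => op1 e (!τ) m k)
    (z := fun k => adjoint W (e k)) (fun x _ k => by rw [ContinuousLinearMap.adjoint_inner_right])
    (fun x hx k => (hc.rel x hx k).symm) (hρ.summable_op W) hc.sum).1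
  have p4 := hasSum_eta (hT := hT) (U := U) (η := η) h.A h.B ha.sum hb.sum true (hT.amp W)
  rw [p2.unique p4] at p3
  exact p3

/-- the relation from the traced out mode -/
theorem comm_rel (he : IsNumberBasis e)
    (hf : IsNumberBasis fun x : Conf n × Conf n => f x.1 x.2) (ht : IsTens e f t)
    (hU : IsBeamSplitter η f U) (hA : Mix a p) (hB : Mix b q) {m : Fin n} {ua va : ι → H}
    {ub vb : κ → H} (ha : Lad e true m a p ua) (hb : Lad e true m b q ub)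
    (ha' : Lad e false m a p va) (hb' : Lad e false m b q vb) (W : H →L[ℂ] H) :
    Mb η false true * (∑' i, (p i : ℂ) * ⟪PhiA hT U b q W (a i), ua i⟫_ℂ) +
        Mb η false false * (∑' j, (q j : ℂ) * ⟪PhiB hT U a p W (b j), ub j⟫_ℂ) =
      (starRingEnd ℂ) (Mb η false true *
          (∑' i, (p i : ℂ) * ⟪PhiA hT U b q (adjoint W) (a i), va i⟫_ℂ) +
        Mb η false false * (∑' j, (q j : ℂ) * ⟪PhiB hT U a p (adjoint W) (b j), vb j⟫_ℂ)) := by
  have hbas : ∀ k l, t (e k) (e l) = f k l := fun k l => ht.basis he hf k l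
  have h1 := hasSum_eta (hT := hT) (U := U) (η := η) hA hB ha.sum hb.sum false (hT.amp W)
  have h2 := (hasSum_eta (hT := hT) (U := U) (η := η) hA hB ha'.sum hb'.sum false
    (hT.amp (adjoint W))).star
  refine h1.unique (h2.congr_fun fun x => ?_)
  by_cases hx : p x.1 * q x.2 = 0
  · rw [hx]; simp
  · have w1 := WW_eta he hf ht hU ha hb false x hx
    have w2 := WW_amp hT he hbas (WW_eta he hf ht hU ha' hb' false x hx) W
    have w3 := WW_adj hf w1 w2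
    rw [star_mul']
    congr 1
    · exact (Complex.conj_ofReal _).symm
    · rw [← w3]
      have e1 : star ⟪hT.amp (adjoint W) (U (t (a x.1) (b x.2))), etaV η t U a b va vb false x⟫_ℂ =
          ⟪etaV η t U a b va vb false x, hT.amp (adjoint W) (U (t (a x.1) (b x.2)))⟫_ℂ :=
        inner_conj_symm _ _
      rw [e1, ← hT.amp_adjoint, ContinuousLinearMap.adjoint_inner_right]

/-- the pairing `Tr W† ((N+1) a ρ - N ρ a)` in the spectral decomposition -/
def xpair (N : ℝ) (a : ι → H) (p : ι → ℝ) (ua va : ι → H) (W : H →L[ℂ] H) : ℂ :=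
  ((N + 1 : ℝ) : ℂ) * (∑' i, (p i : ℂ) * ⟪W (a i), ua i⟫_ℂ) -
    (N : ℂ) * (∑' i, (p i : ℂ) * ⟪va i, adjoint W (a i)⟫_ℂ)

theorem conj_tsum_inner {u : ι → H} (W : H →L[ℂ] H) (p : ι → ℝ) (a : ι → H) :
    (starRingEnd ℂ) (∑' i, (p i : ℂ) * ⟪W (a i), u i⟫_ℂ) = ∑' i, (p i : ℂ) * ⟪u i, W (a i)⟫_ℂ := by
  change star _ = _
  rw [tsum_star]
  refine tsum_congr fun i => ?_
  rw [star_mul']
  congr 1
  · exact Complex.conj_ofReal _
  · exact inner_conj_symm _ _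

/-- THE SUM RULE: `X_M(ρ_C) = √η Φ_A(X_{N_A}(ρ_A)) + √(1-η) Φ_B(X_{N_B}(ρ_B))`, paired with any
bounded operator, `X_N(ρ) = (N+1) a ρ - N ρ a`, `M = η N_A + (1-η) N_B`. -/
theorem sum_rule (he : IsNumberBasis e)
    (hf : IsNumberBasis fun x : Conf n × Conf n => f x.1 x.2) (ht : IsTens e f t)
    (h0 : 0 ≤ η) (h1 : η ≤ 1)
    (hU : IsBeamSplitter η f U) (h : Out hT U a p b q c r) {m : Fin n} {ua va : ι → H}
    {ub vb : κ → H} {uc vc : γ → H} (ha : Lad e true m a p ua) (hb : Lad e true m b q ub)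
    (hc : Lad e true m c r uc) (ha' : Lad e false m a p va) (hb' : Lad e false m b q vb)
    (hc' : Lad e false m c r vc) (NA NB : ℝ) (W : H →L[ℂ] H) :
    xpair (η * NA + (1 - η) * NB) c r uc vc W =
      (Real.sqrt η : ℂ) * xpair NA a p ua va (PhiA hT U b q W) +
      (Real.sqrt (1 - η) : ℂ) * xpair NB b q ub vb (PhiB hT U a p W) := by
  have c1 := (Out.lad he hf ht hU h ha hb hc W).tsum_eq
  have c2 := (Out.lad he hf ht hU h ha' hb' hc' (adjoint W)).tsum_eq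
  have c3 := comm_rel (hT := hT) he hf ht hU h.A h.B ha hb ha' hb' W
  have c2' := congrArg (starRingEnd ℂ) c2
  rw [conj_tsum_inner, map_add, map_mul, map_mul, conj_Mb, conj_Mb, conj_tsum_inner,
    conj_tsum_inner, PhiA_adjoint hT U h.B, PhiB_adjoint hT U h.A] at c2'
  rw [map_add, map_mul, map_mul, conj_Mb, conj_Mb, conj_tsum_inner,
    conj_tsum_inner, PhiA_adjoint hT U h.B, PhiB_adjoint hT U h.A] at c3
  unfold xpair
  rw [c1, c2']
  set α₁ := ∑' i, (p i : ℂ) * ⟪PhiA hT U b q W (a i), ua i⟫_ℂ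
  set α₂ := ∑' i, (p i : ℂ) * ⟪va i, adjoint (PhiA hT U b q W) (a i)⟫_ℂ
  set β₁ := ∑' j, (q j : ℂ) * ⟪PhiB hT U a p W (b j), ub j⟫_ℂ
  set β₂ := ∑' j, (q j : ℂ) * ⟪vb j, adjoint (PhiB hT U a p W) (b j)⟫_ℂ
  have m1 : Mb η true true = (Real.sqrt η : ℂ) := rfl
  have m2 : Mb η true false = (Real.sqrt (1 - η) : ℂ) := rfl
  have m3 : Mb η false true = -(Real.sqrt (1 - η) : ℂ) := rfl
  have m4 : Mb η false false = (Real.sqrt η : ℂ) := rfl
  rw [m3, m4] at c3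
  rw [m1, m2]
  have q1 : (Real.sqrt η : ℂ) * (Real.sqrt η : ℂ) = (η : ℂ) := by
    rw [← Complex.ofReal_mul, Real.mul_self_sqrt h0]
  have q2 : (Real.sqrt (1 - η) : ℂ) * (Real.sqrt (1 - η) : ℂ) = ((1 - η : ℝ) : ℂ) := by
    rw [← Complex.ofReal_mul, Real.mul_self_sqrt (by linarith)]
  push_cast at q2 ⊢
  set s := (Real.sqrt η : ℂ)
  set s' := (Real.sqrt (1 - η) : ℂ)
  have c4 : s * (β₁ - β₂) = s' * (α₁ - α₂) := by linear_combination c3
  have q1' : (η : ℂ) = s * s := q1.symm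
  have q2' : (1 : ℂ) - η = s' * s' := q2.symm
  rw [q2', q1']
  have q3 : s * s + s' * s' = 1 := by rw [← q1', ← q2']; ring
  linear_combination (s * s' * (NA - NB)) * c4 +
    (s * (α₁ - α₂) * NA + s' * (β₁ - β₂) * NB) * q3
end sumrule

end

end Vale.Agent.P369H632
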