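import Vale.Agent.P369.H632.Amp

/-!
P369 (helper632): weighted slices of operators (conditional expectations onto one factor) and the
data processing inequality in the two weighted `ℓ²` norms (Bessel inequality for the two slices).
-/

set_option linter.all false

namespace Vale.Agent.P369H632

open scoped InnerProductSpace ENNReal Topology ComplexOrder
open Vale.Agent.P369 Vale.Agent.P369.Sys Vale.Agent.P369Y

noncomputable section

variable {H K : Type} [NormedAddCommGroup H] [InnerProductSpace ℂ H] [CompleteSpace H]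
  [NormedAddCommGroup K] [InnerProductSpace ℂ K] [CompleteSpace K] {ι κ : Type}

open ContinuousLinearMap (adjoint)

/-- an orthonormal basis with probability weights -/
structure Mix (b : κ → H) (q : κ → ℝ) : Prop where
  nb : IsNumberBasis b
  nonneg : ∀ j, 0 ≤ q j
  sum : HasSum q 1

theorem Mix.norm {b : κ → H} {q : κ → ℝ} (h : Mix b q) (j : κ) : ‖b j‖ = 1 := h.nb.1.1 j

theorem Mix.sumC {b : κ → H} {q : κ → ℝ} (h : Mix b q) : HasSum (fun j => (q j : ℂ)) 1 := by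
  have := Complex.hasSum_ofReal.2 h.sum
  simpa using this

/-- iterated weighted sums -/
theorem hasSum_weight₂ {p : ι → ℝ} {q : κ → ℝ} (hp : ∀ i, 0 ≤ p i) (hq : ∀ j, 0 ≤ q j)
    (sp : Summable p) (sq : Summable q) {F : ι → κ → ℂ} {G : ι → ℂ} {S : ℂ} {B : ℝ}
    (hF : ∀ i j, ‖F i j‖ ≤ B) (h1 : ∀ i, HasSum (fun j => (q j : ℂ) * F i j) (G i))
    (h2 : HasSum (fun i => (p i : ℂ) * G i) S) :
    HasSum (fun x : ι × κ => ((p x.1 * q x.2 : ℝ) : ℂ) * F x.1 x.2) S := by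
  have s0 : Summable fun x : ι × κ => p x.1 * q x.2 := sp.mul_of_nonneg sq hp hq
  have s1 : Summable fun x : ι × κ => ((p x.1 * q x.2 : ℝ) : ℂ) * F x.1 x.2 := by
    refine Summable.of_norm_bounded (s0.mul_right B) fun x => ?_
    rw [norm_mul, Complex.norm_real, Real.norm_of_nonneg (mul_nonneg (hp _) (hq _))]
    exact mul_le_mul_of_nonneg_left (hF _ _) (mul_nonneg (hp _) (hq _))
  have h3 := s1.hasSum
  have h4 : HasSum (fun i => (p i : ℂ) * G i)
      (∑' x : ι × κ, ((p x.1 * q x.2 : ℝ) : ℂ) * F x.1 x.2) := by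
    refine h3.prod_fiberwise fun i => ?_
    refine ((h1 i).mul_left (p i : ℂ)).congr_fun fun j => ?_
    push_cast
    ring
  rwa [h2.unique h4]

variable {t : H → H → K}

namespace IsT

/-- weighted slice of an operator along the second factor -/
def EB (hT : IsT t) (b : κ → H) (q : κ → ℝ) (T : K →L[ℂ] K) : H →L[ℂ] H :=
  ∑' j, (q j : ℂ) • (hT.sl (b j) ∘L T ∘L hT.tl (b j))

theorem norm_term_le (hT : IsT t) {b : κ → H} {q : κ → ℝ} (h : Mix b q) (T : K →L[ℂ] K) (j : κ) :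
    ‖(q j : ℂ) • (hT.sl (b j) ∘L T ∘L hT.tl (b j))‖ ≤ q j * ‖T‖ := by
  rw [norm_smul, Complex.norm_real, Real.norm_of_nonneg (h.nonneg j)]
  refine mul_le_mul_of_nonneg_left ?_ (h.nonneg j)
  calc ‖hT.sl (b j) ∘L T ∘L hT.tl (b j)‖ ≤ ‖hT.sl (b j)‖ * ‖T ∘L hT.tl (b j)‖ :=
        ContinuousLinearMap.opNorm_comp_le _ _
    _ ≤ ‖hT.sl (b j)‖ * (‖T‖ * ‖hT.tl (b j)‖) := by
        gcongr
        exact ContinuousLinearMap.opNorm_comp_le _ _
    _ ≤ 1 * (‖T‖ * 1) := by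
        have h1 := hT.norm_sl_le (b j)
        have h2 := hT.norm_tl_le (b j)
        rw [h.norm] at h1 h2
        gcongr
    _ = ‖T‖ := by ring

theorem hasSum_EB (hT : IsT t) {b : κ → H} {q : κ → ℝ} (h : Mix b q) (T : K →L[ℂ] K) :
    HasSum (fun j => (q j : ℂ) • (hT.sl (b j) ∘L T ∘L hT.tl (b j))) (hT.EB b q T) :=
  (Summable.of_norm_bounded (h.sum.summable.mul_right ‖T‖) (hT.norm_term_le h T)).hasSum

theorem hasSum_EB_apply (hT : IsT t) {b : κ → H} {q : κ → ℝ} (h : Mix b q) (T : K →L[ℂ] K)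
    (x : H) : HasSum (fun j => (q j : ℂ) • hT.sl (b j) (T (t x (b j)))) (hT.EB b q T x) := by
  have h1 := (hT.hasSum_EB h T).mapL (ContinuousLinearMap.apply ℂ H x)
  exact h1

theorem hasSum_EB_inner (hT : IsT t) {b : κ → H} {q : κ → ℝ} (h : Mix b q) (T : K →L[ℂ] K)
    (x y : H) : HasSum (fun j => (q j : ℂ) * ⟪t x (b j), T (t y (b j))⟫_ℂ)
      ⟪x, hT.EB b q T y⟫_ℂ := by
  have h1 := (hT.hasSum_EB_apply h T y).mapL (innerSL ℂ x)
  refine h1.congr_fun fun j => ?_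
  rw [innerSL_apply_apply, inner_smul_right, hT.inner_sl]

theorem norm_EB_le (hT : IsT t) {b : κ → H} {q : κ → ℝ} (h : Mix b q) (T : K →L[ℂ] K) :
    ‖hT.EB b q T‖ ≤ ‖T‖ := by
  have h1 := tsum_of_norm_bounded (h.sum.mul_right ‖T‖) (hT.norm_term_le h T)
  rwa [one_mul] at h1

theorem EB_ext (hT : IsT t) {b : κ → H} {q : κ → ℝ} (h : Mix b q) {T : K →L[ℂ] K}
    {S : H →L[ℂ] H} (hS : ∀ x y, HasSum (fun j => (q j : ℂ) * ⟪t x (b j), T (t y (b j))⟫_ℂ)
      ⟪x, S y⟫_ℂ) : hT.EB b q T = S := by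
  ext y
  refine ext_inner_left ℂ fun x => ?_
  exact (hT.hasSum_EB_inner h T x y).unique (hS x y)

theorem EB_one (hT : IsT t) {b : κ → H} {q : κ → ℝ} (h : Mix b q) : hT.EB b q 1 = 1 := by
  apply hT.EB_ext h
  intro x y
  have h1 := h.sumC.mul_right ⟪x, y⟫_ℂ
  rw [one_mul] at h1
  refine h1.congr_fun fun j => ?_
  rw [ContinuousLinearMap.one_apply, hT.inner, inner_self_eq_norm_sq_to_K, h.norm]
  simp

theorem EB_add (hT : IsT t) {b : κ → H} {q : κ → ℝ} (h : Mix b q) (T S : K →L[ℂ] K) :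
    hT.EB b q (T + S) = hT.EB b q T + hT.EB b q S := by
  apply hT.EB_ext h
  intro x y
  rw [ContinuousLinearMap.add_apply, inner_add_right]
  refine ((hT.hasSum_EB_inner h T x y).add (hT.hasSum_EB_inner h S x y)).congr_fun fun j => ?_
  rw [ContinuousLinearMap.add_apply, inner_add_right, mul_add]

theorem EB_smul (hT : IsT t) {b : κ → H} {q : κ → ℝ} (h : Mix b q) (c : ℂ) (T : K →L[ℂ] K) :
    hT.EB b q (c • T) = c • hT.EB b q T := by
  apply hT.EB_ext h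
  intro x y
  rw [ContinuousLinearMap.smul_apply, inner_smul_right]
  refine ((hT.hasSum_EB_inner h T x y).mul_left c).congr_fun fun j => ?_
  rw [ContinuousLinearMap.smul_apply, inner_smul_right]
  ring

theorem EB_sub (hT : IsT t) {b : κ → H} {q : κ → ℝ} (h : Mix b q) (T S : K →L[ℂ] K) :
    hT.EB b q (T - S) = hT.EB b q T - hT.EB b q S := by
  have e : T - S = T + (-1 : ℂ) • S := by simp [sub_eq_add_neg]
  rw [e, hT.EB_add h, hT.EB_smul h]
  simp [sub_eq_add_neg]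

theorem EB_adjoint (hT : IsT t) {b : κ → H} {q : κ → ℝ} (h : Mix b q) (T : K →L[ℂ] K) :
    hT.EB b q (adjoint T) = adjoint (hT.EB b q T) := by
  apply hT.EB_ext h
  intro x y
  rw [ContinuousLinearMap.adjoint_inner_right]
  have h1 := (hT.hasSum_EB_inner h T y x).star
  have e1 : star ⟪y, hT.EB b q T x⟫_ℂ = ⟪hT.EB b q T x, y⟫_ℂ := inner_conj_symm _ _
  rw [e1] at h1
  refine h1.congr_fun fun j => ?_
  rw [ContinuousLinearMap.adjoint_inner_right]
  have e2 : star ((q j : ℂ) * ⟪t y (b j), T (t x (b j))⟫_ℂ) =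
      (q j : ℂ) * ⟪T (t x (b j)), t y (b j)⟫_ℂ := by
    rw [star_mul', ← inner_conj_symm (T _)]
    congr 1
    exact Complex.conj_ofReal _
  rw [e2]

theorem EB_amp_comp (hT : IsT t) {b : κ → H} {q : κ → ℝ} (h : Mix b q) (W : H →L[ℂ] H)
    (T : K →L[ℂ] K) : hT.EB b q (hT.amp W ∘L T) = W ∘L hT.EB b q T := by
  apply hT.EB_ext h
  intro x y
  rw [ContinuousLinearMap.comp_apply, ← ContinuousLinearMap.adjoint_inner_left]
  refine (hT.hasSum_EB_inner h T _ y).congr_fun fun j => ?_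
  rw [ContinuousLinearMap.comp_apply, hT.inner_amp]

theorem EB_comp_amp (hT : IsT t) {b : κ → H} {q : κ → ℝ} (h : Mix b q) (W : H →L[ℂ] H)
    (T : K →L[ℂ] K) : hT.EB b q (T ∘L hT.amp W) = hT.EB b q T ∘L W := by
  apply hT.EB_ext h
  intro x y
  rw [ContinuousLinearMap.comp_apply]
  refine (hT.hasSum_EB_inner h T x (W y)).congr_fun fun j => ?_
  rw [ContinuousLinearMap.comp_apply, hT.amp_t]

/-- slices of positive operators are positive -/
theorem EB_pos (hT : IsT t) {b : κ → H} {q : κ → ℝ} (h : Mix b q) {T : K →L[ℂ] K}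
    (hp : T.IsPositive) : (hT.EB b q T).IsPositive := by
  rw [ContinuousLinearMap.isPositive_iff_complex]
  intro x
  have h1 := hT.hasSum_EB_inner h T x x
  have h2 : HasSum (fun j => ((q j * (⟪t x (b j), T (t x (b j))⟫_ℂ).re : ℝ) : ℂ))
      ⟪x, hT.EB b q T x⟫_ℂ := by
    refine h1.congr_fun fun j => ?_
    rw [Complex.ofReal_mul]
    congr 1
    have := hp.inner_nonneg_right (t x (b j))
    rw [Complex.le_def] at this
    apply Complex.ext
    · rw [Complex.ofReal_re]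
    · rw [Complex.ofReal_im, ← this.2, Complex.zero_im]
  have h3 := Complex.hasSum_re h2
  have h4 := Complex.hasSum_im h2
  simp only [Complex.ofReal_re, Complex.ofReal_im] at h3 h4
  have h5 : (⟪x, hT.EB b q T x⟫_ℂ).im = 0 := h4.unique hasSum_zero
  have h6 : 0 ≤ (⟪x, hT.EB b q T x⟫_ℂ).re := h3.nonneg fun j =>
    mul_nonneg (h.nonneg j) (hp.re_inner_nonneg_right _)
  have h7 : ⟪hT.EB b q T x, x⟫_ℂ = ((⟪x, hT.EB b q T x⟫_ℂ).re : ℂ) := by
    rw [← inner_conj_symm]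
    apply Complex.ext
    · rw [Complex.conj_re, Complex.ofReal_re]
    · rw [Complex.conj_im, h5, Complex.ofReal_im, neg_zero]
  rw [h7]
  exact ⟨by simp, by simpa using h6⟩

/-- weighted slice along the first factor -/
def EA (hT : IsT t) (a : ι → H) (p : ι → ℝ) (T : K →L[ℂ] K) : H →L[ℂ] H := hT.swap.EB a p T

theorem hasSum_EA_inner (hT : IsT t) {a : ι → H} {p : ι → ℝ} (h : Mix a p) (T : K →L[ℂ] K)
    (x y : H) : HasSum (fun i => (p i : ℂ) * ⟪t (a i) x, T (t (a i) y)⟫_ℂ)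
      ⟪x, hT.EA a p T y⟫_ℂ := hT.swap.hasSum_EB_inner h T x y

/-- the mean of an operator in a product state -/
def mean (p : ι → ℝ) (q : κ → ℝ) (a : ι → H) (b : κ → H) (t : H → H → K) (T : K →L[ℂ] K) : ℂ :=
  ∑' x : ι × κ, ((p x.1 * q x.2 : ℝ) : ℂ) * ⟪t (a x.1) (b x.2), T (t (a x.1) (b x.2))⟫_ℂ

theorem inner_bound (hT : IsT t) {a : ι → H} {p : ι → ℝ} {b : κ → H} {q : κ → ℝ}
    (hA : Mix a p) (hB : Mix b q) (T : K →L[ℂ] K) (i : ι) (j : κ) :
    ‖⟪t (a i) (b j), T (t (a i) (b j))⟫_ℂ‖ ≤ ‖T‖ := by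
  have h1 : ‖t (a i) (b j)‖ = 1 := by rw [hT.norm, hA.norm, hB.norm, one_mul]
  calc ‖⟪t (a i) (b j), T (t (a i) (b j))⟫_ℂ‖ ≤ ‖t (a i) (b j)‖ * ‖T (t (a i) (b j))‖ :=
        norm_inner_le_norm _ _
    _ ≤ ‖t (a i) (b j)‖ * (‖T‖ * ‖t (a i) (b j)‖) := by gcongr; exact T.le_opNorm _
    _ = ‖T‖ := by rw [h1]; ring

theorem hasSum_mean (hT : IsT t) {a : ι → H} {p : ι → ℝ} {b : κ → H} {q : κ → ℝ}
    (hA : Mix a p) (hB : Mix b q) (T : K →L[ℂ] K) :
    HasSum (fun x : ι × κ => ((p x.1 * q x.2 : ℝ) : ℂ) *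
      ⟪t (a x.1) (b x.2), T (t (a x.1) (b x.2))⟫_ℂ) (mean p q a b t T) := by
  have s0 : Summable fun x : ι × κ => p x.1 * q x.2 :=
    hA.sum.summable.mul_of_nonneg hB.sum.summable hA.nonneg hB.nonneg
  refine (Summable.of_norm_bounded (s0.mul_right ‖T‖) fun x => ?_).hasSum
  rw [norm_mul, Complex.norm_real, Real.norm_of_nonneg (mul_nonneg (hA.nonneg _) (hB.nonneg _))]
  exact mul_le_mul_of_nonneg_left (hT.inner_bound hA hB T _ _)
    (mul_nonneg (hA.nonneg _) (hB.nonneg _))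

theorem hasSum_mean_A (hT : IsT t) {a : ι → H} {p : ι → ℝ} {b : κ → H} {q : κ → ℝ}
    (hA : Mix a p) (hB : Mix b q) (T : K →L[ℂ] K) :
    HasSum (fun i => (p i : ℂ) * ⟪a i, hT.EB b q T (a i)⟫_ℂ) (mean p q a b t T) := by
  refine (hT.hasSum_mean hA hB T).prod_fiberwise fun i => ?_
  refine ((hT.hasSum_EB_inner hB T (a i) (a i)).mul_left (p i : ℂ)).congr_fun fun j => ?_
  push_cast
  ring

theorem hasSum_mean_B (hT : IsT t) {a : ι → H} {p : ι → ℝ} {b : κ → H} {q : κ → ℝ}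
    (hA : Mix a p) (hB : Mix b q) (T : K →L[ℂ] K) :
    HasSum (fun j => (q j : ℂ) * ⟪b j, hT.EA a p T (b j)⟫_ℂ) (mean p q a b t T) := by
  have h1 := (Equiv.hasSum_iff (Equiv.prodComm κ ι)).2 (hT.hasSum_mean hA hB T)
  refine h1.prod_fiberwise fun j => ?_
  refine ((hT.hasSum_EA_inner hA T (b j) (b j)).mul_left (q j : ℂ)).congr_fun fun i => ?_
  simp only [Function.comp, Equiv.prodComm_apply, Prod.fst_swap, Prod.snd_swap]
  push_cast
  ring

/-- mean square of an operator in a product state -/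
theorem summable_sq (hT : IsT t) {a : ι → H} {p : ι → ℝ} {b : κ → H} {q : κ → ℝ}
    (hA : Mix a p) (hB : Mix b q) (T : K →L[ℂ] K) :
    Summable fun x : ι × κ => p x.1 * q x.2 * ‖T (t (a x.1) (b x.2))‖ ^ 2 := by
  have s0 : Summable fun x : ι × κ => p x.1 * q x.2 :=
    hA.sum.summable.mul_of_nonneg hB.sum.summable hA.nonneg hB.nonneg
  refine Summable.of_nonneg_of_le (fun x => mul_nonneg (mul_nonneg (hA.nonneg _) (hB.nonneg _))
    (sq_nonneg _)) (fun x => ?_) (s0.mul_right (‖T‖ ^ 2))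
  refine mul_le_mul_of_nonneg_left ?_ (mul_nonneg (hA.nonneg _) (hB.nonneg _))
  refine pow_le_pow_left₀ (norm_nonneg _) ?_ 2
  refine (T.le_opNorm _).trans ?_
  rw [hT.norm, hA.norm, hB.norm, one_mul, mul_one]

theorem summable_one {a : ι → H} {p : ι → ℝ} (hA : Mix a p) (X : H →L[ℂ] H) :
    Summable fun i => p i * ‖X (a i)‖ ^ 2 := by
  refine Summable.of_nonneg_of_le (fun i => mul_nonneg (hA.nonneg _)
    (sq_nonneg _)) (fun i => ?_) (hA.sum.summable.mul_right (‖X‖ ^ 2))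
  refine mul_le_mul_of_nonneg_left ?_ (hA.nonneg _)
  refine pow_le_pow_left₀ (norm_nonneg _) ?_ 2
  refine (X.le_opNorm _).trans ?_
  rw [hA.norm, mul_one]

/-- weighted sum of the inner products with `(X a_i) ⊗ b_j` -/
theorem cross_A (hT : IsT t) {a : ι → H} {p : ι → ℝ} {b : κ → H} {q : κ → ℝ}
    (hA : Mix a p) (hB : Mix b q) (X : H →L[ℂ] H) (T : K →L[ℂ] K) {S : ℂ}
    (h : HasSum (fun i => (p i : ℂ) * ⟪X (a i), hT.EB b q T (a i)⟫_ℂ) S) :
    HasSum (fun x : ι × κ => ((p x.1 * q x.2 : ℝ) : ℂ) *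
      ⟪t (X (a x.1)) (b x.2), T (t (a x.1) (b x.2))⟫_ℂ) S := by
  refine hasSum_weight₂ (F := fun i j => ⟪t (X (a i)) (b j), T (t (a i) (b j))⟫_ℂ)
    (B := ‖X‖ * ‖T‖) hA.nonneg hB.nonneg hA.sum.summable hB.sum.summable
    (fun i j => ?_) (fun i => hT.hasSum_EB_inner hB T (X (a i)) (a i)) h
  calc ‖⟪t (X (a i)) (b j), T (t (a i) (b j))⟫_ℂ‖ ≤ ‖t (X (a i)) (b j)‖ * ‖T (t (a i) (b j))‖ :=
        norm_inner_le_norm _ _
    _ ≤ (‖X‖ * ‖a i‖ * ‖b j‖) * (‖T‖ * ‖t (a i) (b j)‖) := by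
        gcongr
        · rw [hT.norm]
          gcongr
          exact X.le_opNorm _
        · exact T.le_opNorm _
    _ = ‖X‖ * ‖T‖ := by rw [hT.norm, hA.norm, hB.norm]; ring

/-- Bessel inequality for the two slices of an operator of mean zero -/
theorem bessel_zero (hT : IsT t) {a : ι → H} {p : ι → ℝ} {b : κ → H} {q : κ → ℝ}
    (hA : Mix a p) (hB : Mix b q) (T : K →L[ℂ] K) (h0 : mean p q a b t T = 0) :
    (∑' i, p i * ‖hT.EB b q T (a i)‖ ^ 2) + (∑' j, q j * ‖hT.EA a p T (b j)‖ ^ 2) ≤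
      ∑' x : ι × κ, p x.1 * q x.2 * ‖T (t (a x.1) (b x.2))‖ ^ 2 := by
  set X := hT.EB b q T with hX
  set Y := hT.EA a p T with hY
  have sA : HasSum (fun i => p i * ‖X (a i)‖ ^ 2) (∑' i, p i * ‖X (a i)‖ ^ 2) :=
    (summable_one hA X).hasSum
  have sB : HasSum (fun j => q j * ‖Y (b j)‖ ^ 2) (∑' j, q j * ‖Y (b j)‖ ^ 2) :=
    (summable_one hB Y).hasSum
  set α := ∑' i, p i * ‖X (a i)‖ ^ 2 with hα
  set β := ∑' j, q j * ‖Y (b j)‖ ^ 2 with hβ
  -- the cross terms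
  have c1 : HasSum (fun x : ι × κ => ((p x.1 * q x.2 : ℝ) : ℂ) *
      ⟪t (X (a x.1)) (b x.2), T (t (a x.1) (b x.2))⟫_ℂ) (α : ℂ) := by
    apply hT.cross_A hA hB X T
    refine (Complex.hasSum_ofReal.2 sA).congr_fun fun i => ?_
    rw [← hX, inner_self_eq_norm_sq_to_K]
    push_cast
    rfl
  have c2 : HasSum (fun x : ι × κ => ((p x.1 * q x.2 : ℝ) : ℂ) *
      ⟪t (a x.1) (Y (b x.2)), T (t (a x.1) (b x.2))⟫_ℂ) (β : ℂ) := by
    have h1 := hT.swap.cross_A hB hA Y T (S := (β : ℂ)) (by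
      refine (Complex.hasSum_ofReal.2 sB).congr_fun fun j => ?_
      change (q j : ℂ) * ⟪Y (b j), Y (b j)⟫_ℂ = _
      rw [inner_self_eq_norm_sq_to_K]
      push_cast
      rfl)
    have h2 := (Equiv.hasSum_iff (Equiv.prodComm ι κ)).2 h1
    refine h2.congr_fun fun x => ?_
    simp only [Function.comp, Equiv.prodComm_apply, Prod.fst_swap, Prod.snd_swap]
    rw [mul_comm (p x.1)]
  have n1 : HasSum (fun x : ι × κ => p x.1 * q x.2 * ‖t (X (a x.1)) (b x.2)‖ ^ 2) α := by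
    have h1 := hT.cross_A hA hB X (hT.amp X) (S := (α : ℂ)) (by
      refine (Complex.hasSum_ofReal.2 sA).congr_fun fun i => ?_
      have e1 : hT.EB b q (hT.amp X) = X := by
        have := hT.EB_comp_amp hB X 1
        rw [hT.EB_one hB] at this
        exact this
      rw [e1, inner_self_eq_norm_sq_to_K]
      push_cast
      rfl)
    have h2 := Complex.hasSum_re h1
    rw [Complex.ofReal_re] at h2
    refine h2.congr_fun fun x => ?_
    rw [hT.amp_t, Complex.re_ofReal_mul, Ptr.re_inner_self]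
  have n2 : HasSum (fun x : ι × κ => p x.1 * q x.2 * ‖t (a x.1) (Y (b x.2))‖ ^ 2) β := by
    have h1 := hT.swap.cross_A hB hA Y (hT.swap.amp Y) (S := (β : ℂ)) (by
      refine (Complex.hasSum_ofReal.2 sB).congr_fun fun j => ?_
      have e1 : hT.swap.EB a p (hT.swap.amp Y) = Y := by
        have := hT.swap.EB_comp_amp hA Y 1
        rw [hT.swap.EB_one hA] at this
        exact this
      rw [e1, inner_self_eq_norm_sq_to_K]
      push_cast
      rfl)
    have h2 := Complex.hasSum_re h1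
    rw [Complex.ofReal_re] at h2
    have h3 := (Equiv.hasSum_iff (Equiv.prodComm ι κ)).2 h2
    refine h3.congr_fun fun x => ?_
    simp only [Function.comp, Equiv.prodComm_apply, Prod.fst_swap, Prod.snd_swap]
    rw [hT.swap.amp_t, Complex.re_ofReal_mul, Ptr.re_inner_self, mul_comm (p x.1)]
  have c3 : HasSum (fun x : ι × κ => ((p x.1 * q x.2 : ℝ) : ℂ) *
      ⟪t (X (a x.1)) (b x.2), t (a x.1) (Y (b x.2))⟫_ℂ) 0 := by
    have hz : HasSum (fun i => (p i : ℂ) * (⟪X (a i), a i⟫_ℂ * 0)) (0 : ℂ) := by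
      simpa using (hasSum_zero : HasSum (fun _ : ι => (0 : ℂ)) 0)
    have hm := hT.hasSum_mean_B hA hB T
    rw [h0] at hm
    refine hasSum_weight₂ (F := fun i j => ⟪t (X (a i)) (b j), t (a i) (Y (b j))⟫_ℂ)
      (G := fun i => ⟪X (a i), a i⟫_ℂ * 0) (S := 0) (B := ‖X‖ * ‖Y‖) hA.nonneg hB.nonneg
      hA.sum.summable hB.sum.summable (fun i j => ?_) (fun i => ?_) hz
    · rw [hT.inner, norm_mul]
      gcongr
      · calc ‖⟪X (a i), a i⟫_ℂ‖ ≤ ‖X (a i)‖ * ‖a i‖ := norm_inner_le_norm _ _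
          _ ≤ ‖X‖ * ‖a i‖ * ‖a i‖ := by gcongr; exact X.le_opNorm _
          _ = ‖X‖ := by rw [hA.norm]; ring
      · calc ‖⟪b j, Y (b j)⟫_ℂ‖ ≤ ‖b j‖ * ‖Y (b j)‖ := norm_inner_le_norm _ _
          _ ≤ ‖b j‖ * (‖Y‖ * ‖b j‖) := by gcongr; exact Y.le_opNorm _
          _ = ‖Y‖ := by rw [hB.norm]; ring
    · refine (hm.mul_left ⟪X (a i), a i⟫_ℂ).congr_fun fun j => ?_
      rw [hT.inner]
      ring
  have sT := (hT.summable_sq hA hB T).hasSum
  have r1 := Complex.hasSum_re c1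
  have r2 := Complex.hasSum_re c2
  have r3 := Complex.hasSum_re c3
  rw [Complex.ofReal_re] at r1 r2
  rw [Complex.zero_re] at r3
  simp only [Complex.re_ofReal_mul] at r1 r2 r3
  have big := ((((sT.sub (r1.mul_left 2)).sub (r2.mul_left 2)).add n1).add n2).add (r3.mul_left 2)
  have hpos : 0 ≤ (∑' x : ι × κ, p x.1 * q x.2 * ‖T (t (a x.1) (b x.2))‖ ^ 2) - 2 * α - 2 * β +
      α + β + 2 * 0 := by
    refine big.nonneg fun x => ?_
    have e1 : ‖T (t (a x.1) (b x.2)) - t (X (a x.1)) (b x.2) - t (a x.1) (Y (b x.2))‖ ^ 2 =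
        ‖T (t (a x.1) (b x.2))‖ ^ 2 - 2 * (⟪t (X (a x.1)) (b x.2), T (t (a x.1) (b x.2))⟫_ℂ).re -
        2 * (⟪t (a x.1) (Y (b x.2)), T (t (a x.1) (b x.2))⟫_ℂ).re +
        ‖t (X (a x.1)) (b x.2)‖ ^ 2 + ‖t (a x.1) (Y (b x.2))‖ ^ 2 +
        2 * (⟪t (X (a x.1)) (b x.2), t (a x.1) (Y (b x.2))⟫_ℂ).re := by
      rw [← Ptr.re_inner_self, ← Ptr.re_inner_self, ← Ptr.re_inner_self, ← Ptr.re_inner_self]
      simp only [inner_sub_left, inner_sub_right, Complex.sub_re]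
      have s1 : ∀ u v : K, (⟪u, v⟫_ℂ).re = (⟪v, u⟫_ℂ).re := fun u v => by
        rw [← inner_conj_symm, Complex.conj_re]
      rw [s1 (T _) (t (X _) _), s1 (T _) (t (a _) (Y _)), s1 (t (a _) (Y _)) (t (X _) _)]
      ring
    have e2 := mul_nonneg (mul_nonneg (hA.nonneg x.1) (hB.nonneg x.2))
      (sq_nonneg ‖T (t (a x.1) (b x.2)) - t (X (a x.1)) (b x.2) - t (a x.1) (Y (b x.2))‖)
    rw [e1] at e2
    linarith
  linarith

/-- the mean square splits into variance and mean -/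
theorem sq_mean (hT : IsT t) {a : ι → H} {p : ι → ℝ} {b : κ → H} {q : κ → ℝ}
    (hA : Mix a p) (hB : Mix b q) (T : K →L[ℂ] K) :
    (∑' x : ι × κ, p x.1 * q x.2 *
      ‖(T - mean p q a b t T • (1 : K →L[ℂ] K)) (t (a x.1) (b x.2))‖ ^ 2) =
      (∑' x : ι × κ, p x.1 * q x.2 * ‖T (t (a x.1) (b x.2))‖ ^ 2) - ‖mean p q a b t T‖ ^ 2 := by
  set ω := mean p q a b t T with hω
  have s0 : HasSum (fun x : ι × κ => p x.1 * q x.2) 1 := by
    have := hA.sum.mul hB.sum (hA.sum.summable.mul_of_nonneg hB.sum.summable hA.nonneg hB.nonneg)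
    rwa [one_mul] at this
  have h1 := (hT.summable_sq hA hB T).hasSum
  have h2 := Complex.hasSum_re ((hT.hasSum_mean hA hB T).mul_left ((starRingEnd ℂ) ω))
  have e0 : ((starRingEnd ℂ) ω * mean p q a b t T).re = ‖ω‖ ^ 2 := by
    rw [← hω, ← Complex.normSq_eq_conj_mul_self, Complex.ofReal_re, Complex.normSq_eq_norm_sq]
  rw [e0] at h2
  have h3 := (h1.sub (h2.mul_left 2)).add (s0.mul_right (‖ω‖ ^ 2))
  have e1 : ∀ x : ι × κ, p x.1 * q x.2 *
      ‖(T - ω • (1 : K →L[ℂ] K)) (t (a x.1) (b x.2))‖ ^ 2 =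
      p x.1 * q x.2 * ‖T (t (a x.1) (b x.2))‖ ^ 2 -
        2 * ((starRingEnd ℂ) ω * (((p x.1 * q x.2 : ℝ) : ℂ) *
        ⟪t (a x.1) (b x.2), T (t (a x.1) (b x.2))⟫_ℂ)).re + p x.1 * q x.2 * ‖ω‖ ^ 2 := by
    intro x
    have hn : ‖t (a x.1) (b x.2)‖ = 1 := by rw [hT.norm, hA.norm, hB.norm, one_mul]
    have e2 : ((starRingEnd ℂ) ω * (((p x.1 * q x.2 : ℝ) : ℂ) *
        ⟪t (a x.1) (b x.2), T (t (a x.1) (b x.2))⟫_ℂ)).re =
        p x.1 * q x.2 * (⟪ω • t (a x.1) (b x.2), T (t (a x.1) (b x.2))⟫_ℂ).re := by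
      rw [inner_smul_left, ← Complex.re_ofReal_mul]
      congr 1
      ring
    rw [e2, ContinuousLinearMap.sub_apply, ContinuousLinearMap.smul_apply,
      ContinuousLinearMap.one_apply]
    have e3 : ‖T (t (a x.1) (b x.2)) - ω • t (a x.1) (b x.2)‖ ^ 2 =
        ‖T (t (a x.1) (b x.2))‖ ^ 2 -
        2 * (⟪ω • t (a x.1) (b x.2), T (t (a x.1) (b x.2))⟫_ℂ).re + ‖ω‖ ^ 2 := by
      have e4 : ‖ω‖ ^ 2 = ‖ω • t (a x.1) (b x.2)‖ ^ 2 := by rw [norm_smul, hn, mul_one]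
      rw [e4, ← Ptr.re_inner_self, ← Ptr.re_inner_self, ← Ptr.re_inner_self]
      simp only [inner_sub_left, inner_sub_right, Complex.sub_re]
      have s1 : ∀ u v : K, (⟪u, v⟫_ℂ).re = (⟪v, u⟫_ℂ).re := fun u v => by
        rw [← inner_conj_symm, Complex.conj_re]
      rw [s1 (T _) (ω • t _ _)]
      ring
    rw [e3]
    ring
  have h4 := h3.congr_fun (g := fun x : ι × κ => p x.1 * q x.2 *
      ‖(T - ω • (1 : K →L[ℂ] K)) (t (a x.1) (b x.2))‖ ^ 2) e1
  rw [h4.tsum_eq]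
  ring

/-- data processing: the two centred slices -/
theorem bessel (hT : IsT t) {a : ι → H} {p : ι → ℝ} {b : κ → H} {q : κ → ℝ}
    (hA : Mix a p) (hB : Mix b q) (T : K →L[ℂ] K) :
    (∑' i, p i * ‖hT.EB b q T (a i) - mean p q a b t T • a i‖ ^ 2) +
      (∑' j, q j * ‖hT.EA a p T (b j) - mean p q a b t T • b j‖ ^ 2) + ‖mean p q a b t T‖ ^ 2 ≤
      ∑' x : ι × κ, p x.1 * q x.2 * ‖T (t (a x.1) (b x.2))‖ ^ 2 := by
  have h1 := hT.bessel_zero hA hB (T - mean p q a b t T • (1 : K →L[ℂ] K)) (by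
    have h2 := hT.hasSum_mean_A hA hB (T - mean p q a b t T • (1 : K →L[ℂ] K))
    have h3 := (hT.hasSum_mean_A hA hB T).sub (hA.sumC.mul_right (mean p q a b t T))
    rw [one_mul, sub_self] at h3
    refine h2.unique (h3.congr_fun fun i => ?_)
    rw [hT.EB_sub hB, hT.EB_smul hB, hT.EB_one hB, ContinuousLinearMap.sub_apply,
      ContinuousLinearMap.smul_apply, ContinuousLinearMap.one_apply, inner_sub_right,
      inner_smul_right, inner_self_eq_norm_sq_to_K, hA.norm]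
    simp
    ring)
  rw [hT.sq_mean hA hB T] at h1
  have e1 : ∀ i, hT.EB b q (T - mean p q a b t T • (1 : K →L[ℂ] K)) (a i) =
      hT.EB b q T (a i) - mean p q a b t T • a i := fun i => by
    rw [hT.EB_sub hB, hT.EB_smul hB, hT.EB_one hB]
    rfl
  have e2 : ∀ j, hT.EA a p (T - mean p q a b t T • (1 : K →L[ℂ] K)) (b j) =
      hT.EA a p T (b j) - mean p q a b t T • b j := fun j => by
    unfold EA
    rw [hT.swap.EB_sub hA, hT.swap.EB_smul hA, hT.swap.EB_one hA]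
    rfl
  simp only [e1, e2] at h1
  linarith

end IsT

end

end Vale.Agent.P369H632
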