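import Vale.Agent.P369.H632.Cond

/-!
P369 (helper632): decompositions of a trace class operator into weighted rank one operators, and
the trace pairing, which does not depend on the decomposition (also for unbounded factors).
-/

set_option linter.all false

namespace Vale.Agent.P369H632

open scoped InnerProductSpace ENNReal Topology ComplexOrder
open Vale.Agent.P369 Vale.Agent.P369.Sys Vale.Agent.P369Y

noncomputable section

variable {H K : Type} [NormedAddCommGroup H] [InnerProductSpace ℂ H] [CompleteSpace H]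
  [NormedAddCommGroup K] [InnerProductSpace ℂ K] [CompleteSpace K] {ι κ X Y : Type}

open ContinuousLinearMap (adjoint)

/-- `ρ = Σ_x w_x |v_x⟩⟨v_x|` with finite trace -/
structure Dec (ρ : H →L[ℂ] H) (w : X → ℝ) (v : X → H) : Prop where
  nonneg : ∀ x, 0 ≤ w x
  norm : Summable fun x => w x * ‖v x‖ ^ 2
  sum : ∀ φ φ', HasSum (fun x => (w x : ℂ) * (⟪φ, v x⟫_ℂ * ⟪v x, φ'⟫_ℂ)) ⟪φ, ρ φ'⟫_ℂ

/-- the spectral decomposition of an operator -/
theorem Mix.dec {ρ : H →L[ℂ] H} {a : ι → H} {p : ι → ℝ} (h : Mix a p)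
    (hρ : ∀ i, ρ (a i) = (p i : ℂ) • a i) : Dec ρ p a := by
  refine ⟨h.nonneg, ?_, fun φ φ' => ?_⟩
  · refine h.sum.summable.congr fun i => ?_
    rw [h.norm]; simp
  · have hadj : ∀ i x, ⟪a i, ρ x⟫_ℂ = (p i : ℂ) * ⟪a i, x⟫_ℂ := by
      intro i
      have h1 : (innerSL ℂ (a i)) ∘L ρ = (p i : ℂ) • innerSL ℂ (a i) := by
        apply P369Y.clm_ext h.nb
        intro j
        rw [ContinuousLinearMap.comp_apply, hρ, ContinuousLinearMap.smul_apply,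
          innerSL_apply_apply, innerSL_apply_apply, inner_smul_right, smul_eq_mul]
        classical
        rw [orthonormal_iff_ite.1 h.nb.1]
        by_cases hij : i = j
        · subst hij; simp
        · simp [hij]
      intro x
      have := DFunLike.congr_fun h1 x
      simpa using this
    have h1 := parseval h.nb φ (ρ φ')
    refine h1.congr_fun fun i => ?_
    rw [hadj]
    ring

/-- the trace pairing does not depend on the decomposition -/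
theorem Dec.pair {ρ : H →L[ℂ] H} {w : X → ℝ} {v : X → H} (h : Dec ρ w v) {e : ι → H}
    (he : IsNumberBasis e) {s u : X → H} {d z : ι → H}
    (hs : ∀ x, w x ≠ 0 → ∀ k, ⟪s x, e k⟫_ℂ = ⟪v x, z k⟫_ℂ)
    (hu : ∀ x, w x ≠ 0 → ∀ k, ⟪e k, u x⟫_ℂ = ⟪d k, v x⟫_ℂ)
    (Ss : Summable fun x => w x * ‖s x‖ ^ 2) (Su : Summable fun x => w x * ‖u x‖ ^ 2) :
    HasSum (fun x => (w x : ℂ) * ⟪s x, u x⟫_ℂ) (∑' k, ⟪d k, ρ (z k)⟫_ℂ) ∧
      Summable fun k => ⟪d k, ρ (z k)⟫_ℂ := by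
  set F : X × ι → ℂ := fun y => (w y.1 : ℂ) * (⟪s y.1, e y.2⟫_ℂ * ⟪e y.2, u y.1⟫_ℂ) with hF
  set D : X × ι → ℝ := fun y => w y.1 * (‖⟪e y.2, s y.1⟫_ℂ‖ ^ 2 + ‖⟪e y.2, u y.1⟫_ℂ‖ ^ 2) with hD
  have d1 : ∀ x, HasSum (fun k => D (x, k)) (w x * (‖s x‖ ^ 2 + ‖u x‖ ^ 2)) := fun x =>
    ((parseval_sq he (s x)).add (parseval_sq he (u x))).mul_left (w x)
  have sD : Summable D := by
    rw [summable_prod_of_nonneg (fun y => mul_nonneg (h.nonneg _) (by positivity))]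
    refine ⟨fun x => (d1 x).summable, ?_⟩
    refine (Ss.add Su).congr fun x => ?_
    rw [(d1 x).tsum_eq]
    ring
  have sF : Summable F := by
    refine Summable.of_norm_bounded sD fun y => ?_
    rw [hF, hD]
    simp only
    rw [norm_mul, Complex.norm_real, Real.norm_of_nonneg (h.nonneg _), norm_mul]
    refine mul_le_mul_of_nonneg_left ?_ (h.nonneg _)
    rw [← inner_conj_symm (s y.1), RCLike.norm_conj]
    nlinarith only [sq_nonneg (‖⟪e y.2, s y.1⟫_ℂ‖ - ‖⟪e y.2, u y.1⟫_ℂ‖),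
      sq_nonneg ‖⟪e y.2, s y.1⟫_ℂ‖, sq_nonneg ‖⟪e y.2, u y.1⟫_ℂ‖]
  have a1 : HasSum (fun x => (w x : ℂ) * ⟪s x, u x⟫_ℂ) (∑' y, F y) := by
    refine sF.hasSum.prod_fiberwise fun x => ?_
    exact (parseval he (s x) (u x)).mul_left (w x : ℂ)
  have a2 : HasSum (fun k => ⟪d k, ρ (z k)⟫_ℂ) (∑' y, F y) := by
    have h1 := (Equiv.hasSum_iff (Equiv.prodComm ι X)).2 sF.hasSum
    refine h1.prod_fiberwise fun k => ?_
    refine (h.sum (d k) (z k)).congr_fun fun x => ?_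
    simp only [Function.comp, Equiv.prodComm_apply, Prod.swap_prod_mk, hF]
    by_cases hw : w x = 0
    · rw [hw]; simp
    · rw [hs x hw k, hu x hw k]
      ring
  exact ⟨by rw [a2.tsum_eq]; exact a1, a2.summable⟩

/-- two decompositions give the same trace pairing -/
theorem Dec.pair_eq {ρ : H →L[ℂ] H} {w : X → ℝ} {v : X → H} (h : Dec ρ w v) {w' : Y → ℝ}
    {v' : Y → H} (h' : Dec ρ w' v') {e : ι → H} (he : IsNumberBasis e) {s u : X → H}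
    {s' u' : Y → H} {d z : ι → H}
    (hs : ∀ x, w x ≠ 0 → ∀ k, ⟪s x, e k⟫_ℂ = ⟪v x, z k⟫_ℂ)
    (hu : ∀ x, w x ≠ 0 → ∀ k, ⟪e k, u x⟫_ℂ = ⟪d k, v x⟫_ℂ)
    (Ss : Summable fun x => w x * ‖s x‖ ^ 2) (Su : Summable fun x => w x * ‖u x‖ ^ 2)
    (hs' : ∀ x, w' x ≠ 0 → ∀ k, ⟪s' x, e k⟫_ℂ = ⟪v' x, z k⟫_ℂ)
    (hu' : ∀ x, w' x ≠ 0 → ∀ k, ⟪e k, u' x⟫_ℂ = ⟪d k, v' x⟫_ℂ)
    (Ss' : Summable fun x => w' x * ‖s' x‖ ^ 2) (Su' : Summable fun x => w' x * ‖u' x‖ ^ 2)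
    {S : ℂ} (hS : HasSum (fun x => (w x : ℂ) * ⟪s x, u x⟫_ℂ) S) :
    HasSum (fun x => (w' x : ℂ) * ⟪s' x, u' x⟫_ℂ) S := by
  have h1 := (h.pair he hs hu Ss Su).1
  have h2 := (h'.pair he hs' hu' Ss' Su').1
  rw [hS.unique h1]
  exact h2

theorem Dec.summable_op {ρ : H →L[ℂ] H} {w : X → ℝ} {v : X → H} (h : Dec ρ w v)
    (W : H →L[ℂ] H) : Summable fun x => w x * ‖W (v x)‖ ^ 2 := by
  refine Summable.of_nonneg_of_le (fun x => mul_nonneg (h.nonneg _) (sq_nonneg _)) (fun x => ?_)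
    (h.norm.mul_left (‖W‖ ^ 2))
  have h1 : ‖W (v x)‖ ^ 2 ≤ ‖W‖ ^ 2 * ‖v x‖ ^ 2 := by
    rw [← mul_pow]
    exact pow_le_pow_left₀ (norm_nonneg _) (W.le_opNorm _) 2
  nlinarith [h.nonneg x, mul_le_mul_of_nonneg_left h1 (h.nonneg x)]

/-- bounded operators -/
theorem Dec.pair_bdd {ρ : H →L[ℂ] H} {w : X → ℝ} {v : X → H} (h : Dec ρ w v) {w' : Y → ℝ}
    {v' : Y → H} (h' : Dec ρ w' v') (W V : H →L[ℂ] H) {S : ℂ}
    (hS : HasSum (fun x => (w x : ℂ) * ⟪W (v x), V (v x)⟫_ℂ) S) :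
    HasSum (fun x => (w' x : ℂ) * ⟪W (v' x), V (v' x)⟫_ℂ) S := by
  obtain ⟨ι, e, he⟩ := exists_nb H
  refine h.pair_eq h' he (d := fun k => adjoint V (e k)) (z := fun k => adjoint W (e k))
    (fun x _ k => ?_) (fun x _ k => ?_) (h.summable_op W) (h.summable_op V) (fun x _ k => ?_)
    (fun x _ k => ?_) (h'.summable_op W) (h'.summable_op V) hS
  · rw [ContinuousLinearMap.adjoint_inner_right]
  · rw [ContinuousLinearMap.adjoint_inner_left]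
  · rw [ContinuousLinearMap.adjoint_inner_right]
  · rw [ContinuousLinearMap.adjoint_inner_left]

variable {t : H → H → K}

/-- the product state in the product eigenbasis -/
theorem prod_dec (hT : IsT t) {a : ι → H} {p : ι → ℝ} {b : κ → H} {q : κ → ℝ}
    (hA : Mix a p) (hB : Mix b q) {ρA ρB : H →L[ℂ] H}
    (eA : ∀ i, ρA (a i) = (p i : ℂ) • a i) (eB : ∀ j, ρB (b j) = (q j : ℂ) • b j)
    {R : K →L[ℂ] K} (hR : ∀ x y, R (t x y) = t (ρA x) (ρB y)) :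
    Dec R (fun x : ι × κ => p x.1 * q x.2) (fun x => t (a x.1) (b x.2)) := by
  have hm : Mix (fun x : ι × κ => t (a x.1) (b x.2)) (fun x => p x.1 * q x.2) := by
    refine ⟨hT.basis hA.nb hB.nb, fun x => mul_nonneg (hA.nonneg _) (hB.nonneg _), ?_⟩
    have := hA.sum.mul hB.sum (hA.sum.summable.mul_of_nonneg hB.sum.summable hA.nonneg hB.nonneg)
    rwa [one_mul] at this
  refine hm.dec fun x => ?_
  rw [hR, eA, eB, hT.smul_left, hT.smul_right, smul_smul]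
  push_cast
  rfl

/-- unitary conjugation of a decomposition -/
theorem Dec.unitary {R : K →L[ℂ] K} {w : X → ℝ} {v : X → K} (h : Dec R w v) (U : K ≃ₗᵢ[ℂ] K)
    {R' : K →L[ℂ] K} (hR : ∀ x, R' x = U (R (U.symm x))) : Dec R' w (fun x => U (v x)) := by
  refine ⟨h.nonneg, ?_, fun φ φ' => ?_⟩
  · refine h.norm.congr fun x => ?_
    rw [U.norm_map]
  · have e1 : ∀ ξ ζ : K, ⟪ξ, U ζ⟫_ℂ = ⟪U.symm ξ, ζ⟫_ℂ := fun ξ ζ => by
      rw [← U.inner_map_map (U.symm ξ), U.apply_symm_apply]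
    have e2 : ∀ ξ ζ : K, ⟪U ζ, ξ⟫_ℂ = ⟪ζ, U.symm ξ⟫_ℂ := fun ξ ζ => by
      rw [← U.inner_map_map _ (U.symm ξ), U.apply_symm_apply]
    rw [hR, e1]
    refine (h.sum _ _).congr_fun fun x => ?_
    rw [e1, e2]

/-- partial trace of a decomposition -/
theorem Dec.slice (hT : IsT t) {R : K →L[ℂ] K} {w : X → ℝ} {v : X → K} (h : Dec R w v)
    {g : κ → H} (hg : IsNumberBasis g) {ρ : H →L[ℂ] H}
    (hρ : ∀ φ φ', HasSum (fun l => ⟪t φ (g l), R (t φ' (g l))⟫_ℂ) ⟪φ, ρ φ'⟫_ℂ) :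
    Dec ρ (fun y : X × κ => w y.1) (fun y => hT.sl (g y.2) (v y.1)) := by
  have n1 : ∀ x, HasSum (fun l => w x * ‖hT.sl (g l) (v x)‖ ^ 2) (w x * ‖v x‖ ^ 2) := fun x =>
    (hT.hasSum_sl_sq hg (v x)).mul_left (w x)
  have sN : Summable fun y : X × κ => w y.1 * ‖hT.sl (g y.2) (v y.1)‖ ^ 2 := by
    rw [summable_prod_of_nonneg (fun y => mul_nonneg (h.nonneg _) (by positivity))]
    refine ⟨fun x => (n1 x).summable, ?_⟩
    refine h.norm.congr fun x => ?_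
    exact (n1 x).tsum_eq.symm
  refine ⟨fun y => h.nonneg _, sN, fun φ φ' => ?_⟩
  set F : X × κ → ℂ := fun y => (w y.1 : ℂ) * (⟪φ, hT.sl (g y.2) (v y.1)⟫_ℂ *
    ⟪hT.sl (g y.2) (v y.1), φ'⟫_ℂ) with hF
  have sF : Summable F := by
    refine Summable.of_norm_bounded (sN.mul_left (‖φ‖ * ‖φ'‖)) fun y => ?_
    rw [hF]
    simp only
    rw [norm_mul, Complex.norm_real, Real.norm_of_nonneg (h.nonneg _), norm_mul]
    have b1 : ‖⟪φ, hT.sl (g y.2) (v y.1)⟫_ℂ‖ ≤ ‖φ‖ * ‖hT.sl (g y.2) (v y.1)‖ :=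
      norm_inner_le_norm _ _
    have b2 : ‖⟪hT.sl (g y.2) (v y.1), φ'⟫_ℂ‖ ≤ ‖hT.sl (g y.2) (v y.1)‖ * ‖φ'‖ :=
      norm_inner_le_norm _ _
    calc w y.1 * (‖⟪φ, hT.sl (g y.2) (v y.1)⟫_ℂ‖ * ‖⟪hT.sl (g y.2) (v y.1), φ'⟫_ℂ‖)
        ≤ w y.1 * ((‖φ‖ * ‖hT.sl (g y.2) (v y.1)‖) * (‖hT.sl (g y.2) (v y.1)‖ * ‖φ'‖)) := by
          gcongr
          exact h.nonneg _
      _ = _ := by ring
  have a1 : HasSum (fun l => ⟪t φ (g l), R (t φ' (g l))⟫_ℂ) (∑' y, F y) := by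
    have h1 := (Equiv.hasSum_iff (Equiv.prodComm κ X)).2 sF.hasSum
    refine h1.prod_fiberwise fun l => ?_
    refine (h.sum (t φ (g l)) (t φ' (g l))).congr_fun fun x => ?_
    simp only [Function.comp, Equiv.prodComm_apply, Prod.swap_prod_mk, hF]
    rw [hT.inner_sl, hT.inner_sl_left]
  rw [(hρ φ φ').unique a1]
  exact sF.hasSum

end

end Vale.Agent.P369H632
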