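import Vale.Agent.P369.FD.MainStmts
import Vale.Agent.P369.H688.BS
import Vale.Agent.P369.H587.Dp

/-!
P369, finite-matrix track (helper632): MAINZ, absorption of all polynomial factors in the errors.
-/

set_option linter.all false

namespace Vale.Agent.P369.FD

open Matrix Filter
open Vale.Agent.P369 (Conf up down ampn g)
open Vale.Agent.P369A (Ct)
open Vale.Agent.P369.H712 (lm)
open scoped Kronecker ComplexOrder Topology

noncomputable section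

namespace MZ

/-- polynomials times a geometric sequence are bounded -/
theorem poly_bdd (m : ℕ) {r : ℝ} (h0 : 0 ≤ r) (h1 : r < 1) :
    ∃ B : ℝ, 0 < B ∧ ∀ D : ℕ, ((D : ℝ) + 1) ^ m * r ^ D ≤ B := by
  rcases h0.eq_or_lt with h | h
  · refine ⟨1, one_pos, fun D => ?_⟩
    rw [← h]
    rcases Nat.eq_zero_or_pos D with hD | hD
    · subst hD; simp
    · rw [zero_pow hD.ne']; simp
  · have h2 : Tendsto (fun D : ℕ => (D : ℝ) ^ m * r ^ D) atTop (𝓝 0) :=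
      tendsto_pow_const_mul_const_pow_of_abs_lt_one m (by rwa [abs_of_pos h])
    have h3 := (h2.comp (tendsto_add_atTop_nat 1)).const_mul (1 / r)
    rw [mul_zero] at h3
    obtain ⟨B, hB⟩ := h3.bddAbove_range
    refine ⟨max B 1, lt_max_of_lt_right one_pos, fun D => ?_⟩
    have h4 := hB (Set.mem_range_self D)
    simp only [Function.comp] at h4
    refine le_trans (le_of_eq ?_) (h4.trans (le_max_left _ _))
    rw [pow_succ]
    push_cast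
    field_simp

theorem bb_pos {N : ℝ} (h : 0 < N) : 0 < bb N := by
  unfold bb
  apply Real.log_pos
  have : 0 < 1 / N := by positivity
  linarith

theorem dform_nonneg {κ : Type} [Fintype κ] [DecidableEq κ] {C : Matrix κ κ ℂ} (hC : C.PosDef)
    (Z : Matrix κ κ ℂ) : 0 ≤ dform (fun x y => 1 / (x + y)) hC.isHermitian Z := by
  unfold dform
  refine Finset.sum_nonneg fun k _ => Finset.sum_nonneg fun l _ => ?_
  have h1 := hC.eigenvalues_pos k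
  have h2 := hC.eigenvalues_pos l
  exact mul_nonneg (one_div_nonneg.2 (add_pos h1 h2).le) (sq_nonneg _)

theorem isDM_outp {n : ℕ} {η : ℝ} (h0 : 0 ≤ η) (h1 : η ≤ 1) (D : ℕ)
    {A B : Matrix (Ct n D) (Ct n D) ℂ} (hA : IsDM A) (hB : IsDM B) :
    IsDM (outp (bsW n η D) A B) := by
  have hW := (thm_BS n η h0 h1 D).iso
  exact ⟨Vale.P369.H587.outC_posSemidef (bsW n η D) A B hA.1 hB.1,
    Vale.P369.H587.outC_trace (bsW n η D) A B hW hA.2 hB.2⟩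

theorem enr_le {n X : ℕ} {A : Matrix (Ct n X) (Ct n X) ℂ} (hA : IsDM A) : enr A ≤ X := by
  have h1 : ∑ k, (A k k).re = 1 := by
    have := congrArg Complex.re hA.2
    rw [Matrix.trace, Complex.re_sum] at this
    simpa using this
  have h2 : ∀ k, 0 ≤ (A k k).re := fun k => by
    have := hA.1.diag_nonneg (i := k)
    rw [Complex.le_def] at this
    exact this.1
  calc enr A = ∑ k, tot k * (A k k).re := rfl
    _ ≤ ∑ k, (X : ℝ) * (A k k).re := by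
        refine Finset.sum_le_sum fun k _ => mul_le_mul_of_nonneg_right ?_ (h2 k)
        unfold tot
        exact_mod_cast k.2
    _ = X := by rw [← Finset.mul_sum, h1, mul_one]

/-! ### the scalar estimates -/

section scal

variable {n D : ℕ} {x q r sK sK' K₀ b ch G : ℝ}

/-- `Tr A tp ≤ x² K₀ q^{2D}` -/
theorem tp_bound {lam v m : ℝ} (hl : 1 < lam) (hx : x = (D : ℝ) + 1)
    (hq : wD lam D = (q ^ D) ^ 2) (hK : 0 ≤ K₀) (u1 : v ≤ ((D : ℝ) + 1) / lam ^ D * m)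
    (u2 : wD lam D * m ≤ K₀) : v ≤ x ^ 2 * (K₀ * (q ^ D) ^ 2) := by
  refine u1.trans ?_
  have e1 : lam ^ D = (Real.sqrt lam ^ D) * (Real.sqrt lam ^ D) := by
    rw [← mul_pow, Real.mul_self_sqrt (by linarith)]
  have hs : 0 < Real.sqrt lam := Real.sqrt_pos.2 (by linarith)
  have hw0 : 0 < Real.sqrt lam ^ D := by positivity
  have hx1 : 1 ≤ x := by
    rw [hx]
    have : (0 : ℝ) ≤ D := Nat.cast_nonneg D
    linarith
  have e2 : ((D : ℝ) + 1) / lam ^ D * m = x * (wD lam D * (wD lam D * m)) := by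
    unfold wD
    rw [e1, ← hx]
    field_simp
  rw [e2]
  have hw1 : 0 ≤ wD lam D := by unfold wD; positivity
  calc x * (wD lam D * (wD lam D * m)) ≤ x * (wD lam D * K₀) := by gcongr
    _ = x * (K₀ * (q ^ D) ^ 2) := by rw [hq]; ring
    _ ≤ x ^ 2 * (K₀ * (q ^ D) ^ 2) := by
        refine mul_le_mul_of_nonneg_right ?_ (by positivity)
        nlinarith

theorem sqrt_tp (hx : 0 ≤ x) (hK : 0 ≤ K₀) (hq : 0 ≤ q) :
    Real.sqrt (x ^ 2 * (K₀ * (q ^ D) ^ 2)) = x * (Real.sqrt K₀ * q ^ D) := by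
  rw [Real.sqrt_mul (by positivity), Real.sqrt_sq hx, Real.sqrt_mul hK,
    Real.sqrt_sq (by positivity)]

theorem sqrt_tp2 (hx : 0 ≤ x) (hK : 0 ≤ K₀) (hq : 0 ≤ q) :
    Real.sqrt (x ^ 2 * (K₀ * (q ^ D) ^ 2) + x ^ 2 * (K₀ * (q ^ D) ^ 2)) ≤
      2 * (x * (Real.sqrt K₀ * q ^ D)) := by
  rw [← sqrt_tp hx hK hq, ← two_mul, Real.sqrt_mul (by norm_num)]
  refine mul_le_mul_of_nonneg_right ?_ (Real.sqrt_nonneg _)
  rw [Real.sqrt_le_left (by norm_num)]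
  norm_num

theorem T1_bound {w t C : ℝ} (hC : 0 ≤ C) (hw : 0 ≤ w) (ht : t ≤ C) (hx : 1 ≤ x) (hq0 : 0 < q)
    (hq1 : q < 1) (hqr : q ^ D ≤ r ^ D) (hr : 0 ≤ r) (hwq : w = (q ^ D) ^ 2) :
    w * t ≤ C * (x ^ (n + 3) * r ^ D) := by
  have a1 : q ^ D ≤ 1 := pow_le_one₀ hq0.le hq1.le
  have a2 : (q ^ D) ^ 2 ≤ q ^ D := by nlinarith [pow_pos hq0 D]
  have a3 : (1 : ℝ) ≤ x ^ (n + 3) := one_le_pow₀ hx
  have hwr : w ≤ x ^ (n + 3) * r ^ D := by
    rw [hwq]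
    calc (q ^ D) ^ 2 ≤ q ^ D := a2
      _ ≤ r ^ D := hqr
      _ = 1 * r ^ D := (one_mul _).symm
      _ ≤ x ^ (n + 3) * r ^ D := mul_le_mul_of_nonneg_right a3 (by positivity)
  calc w * t ≤ w * C := mul_le_mul_of_nonneg_left ht hw
    _ ≤ (x ^ (n + 3) * r ^ D) * C := mul_le_mul_of_nonneg_right hwr hC
    _ = C * (x ^ (n + 3) * r ^ D) := mul_comm _ _

theorem T3_bound {Nb : ℝ} {u v : Fin n → ℝ} (hNb : 0 < Nb) (hb : 0 < b) (hx : 1 ≤ x)
    (hK : 0 ≤ K₀) (hq0 : 0 < q) (hqr : q ^ D ≤ r ^ D) (hr : 0 ≤ r) (hu : ∀ j, u j ≤ K₀ + 1)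
    (hv : ∀ j, v j ≤ x ^ 2 * (K₀ * (q ^ D) ^ 2)) :
    Nb * x / b * ∑ j, Real.sqrt (u j) * Real.sqrt (v j) ≤
      Nb / b * (n * (Real.sqrt (K₀ + 1) * Real.sqrt K₀)) * (x ^ (n + 3) * r ^ D) := by
  have hx0 : 0 ≤ x := by linarith
  have s1 : ∑ j : Fin n, Real.sqrt (u j) * Real.sqrt (v j) ≤
      ∑ j : Fin n, Real.sqrt (K₀ + 1) * (x * (Real.sqrt K₀ * q ^ D)) := by
    refine Finset.sum_le_sum fun j _ =>
      mul_le_mul (Real.sqrt_le_sqrt (hu j)) ?_ (Real.sqrt_nonneg _) (Real.sqrt_nonneg _)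
    rw [← sqrt_tp hx0 hK hq0.le]
    exact Real.sqrt_le_sqrt (hv j)
  rw [Finset.sum_const, Finset.card_univ, Fintype.card_fin, nsmul_eq_mul] at s1
  calc Nb * x / b * ∑ j, Real.sqrt (u j) * Real.sqrt (v j)
      ≤ Nb * x / b * (n * (Real.sqrt (K₀ + 1) * (x * (Real.sqrt K₀ * q ^ D)))) :=
        mul_le_mul_of_nonneg_left s1 (by positivity)
    _ = Nb / b * (n * (Real.sqrt (K₀ + 1) * Real.sqrt K₀)) * (x ^ 2 * q ^ D) := by ring
    _ ≤ Nb / b * (n * (Real.sqrt (K₀ + 1) * Real.sqrt K₀)) * (x ^ (n + 3) * r ^ D) := by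
        refine mul_le_mul_of_nonneg_left ?_ (by positivity)
        exact mul_le_mul (pow_le_pow_right₀ hx (by omega)) hqr (by positivity) (by positivity)

theorem T5_bound {h m : ℝ} {v w : Fin n → ℝ} (hh : h ≤ ch * x ^ 2) (hh0 : 0 ≤ h) (hm : 0 ≤ m)
    (hc : 0 ≤ ch) (hx : 1 ≤ x) (hK : 0 ≤ K₀) (hq0 : 0 < q) (hqr : q ^ D ≤ r ^ D) (hr : 0 ≤ r)
    (hv : ∀ j, v j ≤ x ^ 2 * (K₀ * (q ^ D) ^ 2)) (hw : ∀ j, w j ≤ x ^ 2 * (K₀ * (q ^ D) ^ 2)) :
    h * m * ∑ j, Real.sqrt (v j + w j) ≤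
      ch * m * (n * (2 * Real.sqrt K₀)) * (x ^ (n + 3) * r ^ D) := by
  have hx0 : 0 ≤ x := by linarith
  have s1 : ∑ j : Fin n, Real.sqrt (v j + w j) ≤
      ∑ j : Fin n, 2 * (x * (Real.sqrt K₀ * q ^ D)) :=
    Finset.sum_le_sum fun j _ =>
      (Real.sqrt_le_sqrt (add_le_add (hv j) (hw j))).trans (sqrt_tp2 hx0 hK hq0.le)
  rw [Finset.sum_const, Finset.card_univ, Fintype.card_fin, nsmul_eq_mul] at s1
  calc h * m * ∑ j, Real.sqrt (v j + w j)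
      ≤ h * m * (n * (2 * (x * (Real.sqrt K₀ * q ^ D)))) :=
        mul_le_mul_of_nonneg_left s1 (by positivity)
    _ ≤ (ch * x ^ 2) * m * (n * (2 * (x * (Real.sqrt K₀ * q ^ D)))) := by gcongr
    _ = ch * m * (n * (2 * Real.sqrt K₀)) * (x ^ 3 * q ^ D) := by ring
    _ ≤ ch * m * (n * (2 * Real.sqrt K₀)) * (x ^ (n + 3) * r ^ D) := by
        refine mul_le_mul_of_nonneg_left ?_ (by positivity)
        exact mul_le_mul (pow_le_pow_right₀ hx (by omega)) hqr (by positivity) (by positivity)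

theorem T6_bound {e T card s2 h : ℝ} (he : e ≤ r ^ D) (he0 : 0 ≤ e) (hT0 : 0 ≤ T)
    (hT : T ≤ n * (card * (s2 * h))) (hcard : card ≤ 2 ^ n * x ^ n) (hcard0 : 0 ≤ card)
    (hs : s2 ≤ 2 * x) (hs0 : 0 ≤ s2) (hh : h ≤ ch * x ^ 2) (hh0 : 0 ≤ h) (hr : 0 ≤ r)
    (hx : 1 ≤ x) : e * T ≤ n * (2 ^ n * (2 * ch)) * (x ^ (n + 3) * r ^ D) := by
  have hx0 : 0 ≤ x := by linarith
  calc e * T ≤ r ^ D * (n * ((2 ^ n * x ^ n) * ((2 * x) * (ch * x ^ 2)))) := by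
        refine mul_le_mul he (hT.trans ?_) hT0 (by positivity)
        gcongr
    _ = n * (2 ^ n * (2 * ch)) * (x ^ (n + 3) * r ^ D) := by ring

theorem T7_bound {e card : ℝ} {g : Fin n → ℝ} (he : e ≤ r ^ D) (he0 : 0 ≤ e)
    (hcard : card ≤ 2 ^ n * x ^ n) (hcard0 : 0 ≤ card) (hg : ∀ j, g j ≤ 2 * x)
    (hg0 : ∀ j, 0 ≤ g j) (hr : 0 ≤ r) (hx : 1 ≤ x) :
    e * card * ∑ j, g j ≤ 2 ^ n * (n * 2) * (x ^ (n + 3) * r ^ D) := by
  have hx0 : 0 ≤ x := by linarith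
  have s1 : ∑ j, g j ≤ ∑ j : Fin n, 2 * x := Finset.sum_le_sum fun j _ => hg j
  rw [Finset.sum_const, Finset.card_univ, Fintype.card_fin, nsmul_eq_mul] at s1
  calc e * card * ∑ j, g j ≤ r ^ D * (2 ^ n * x ^ n) * (n * (2 * x)) := by
        refine mul_le_mul (mul_le_mul he hcard hcard0 (by positivity)) s1
          (Finset.sum_nonneg fun j _ => hg0 j) (by positivity)
    _ = 2 ^ n * (n * 2) * (x ^ (n + 1) * r ^ D) := by ring
    _ ≤ 2 ^ n * (n * 2) * (x ^ (n + 3) * r ^ D) := by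
        refine mul_le_mul_of_nonneg_left ?_ (by positivity)
        exact mul_le_mul_of_nonneg_right (pow_le_pow_right₀ hx (by omega)) (by positivity)

/-- the total constant -/
def GZ (n : ℕ) (CA CB NA NB b m K₀ : ℝ) : ℝ :=
  CA + CB + NA / b * (n * (Real.sqrt (K₀ + 1) * Real.sqrt K₀)) +
    NB / b * (n * (Real.sqrt (K₀ + 1) * Real.sqrt K₀)) +
    (2 * (1 + 2 / b)) * m * (n * (2 * Real.sqrt K₀)) +
    n * (2 ^ n * (2 * (2 * (1 + 2 / b)))) + 2 ^ n * (n * 2)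

theorem GZ_nonneg {CA CB NA NB b m K₀ : ℝ} (hCA : 0 ≤ CA) (hCB : 0 ≤ CB) (hNA : 0 < NA)
    (hNB : 0 < NB) (hb : 0 < b) (hm : 0 ≤ m) : 0 ≤ GZ n CA CB NA NB b m K₀ := by
  unfold GZ
  positivity

theorem GZ_mul (CA CB NA NB b m K₀ P : ℝ) : GZ n CA CB NA NB b m K₀ * P =
    CA * P + CB * P + NA / b * (n * (Real.sqrt (K₀ + 1) * Real.sqrt K₀)) * P +
    NB / b * (n * (Real.sqrt (K₀ + 1) * Real.sqrt K₀)) * P +
    (2 * (1 + 2 / b)) * m * (n * (2 * Real.sqrt K₀)) * P +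
    n * (2 ^ n * (2 * (2 * (1 + 2 / b)))) * P + 2 ^ n * (n * 2) * P := by
  unfold GZ
  ring

/-- the rates -/
theorem rates {lam : ℝ} (hl : 1 < lam) : ∃ q r ρ : ℝ, 0 < q ∧ q < 1 ∧ 0 ≤ r ∧ 0 < ρ ∧ ρ < 1 ∧
    ρ * ρ = r ∧ ∀ D : ℕ, wD lam D = (q ^ D) ^ 2 ∧ q ^ D ≤ r ^ D ∧ eD D ≤ r ^ D := by
  have hsl : 1 < Real.sqrt lam := by
    rw [Real.lt_sqrt (by norm_num)]
    simpa using hl
  have hssl : 1 < Real.sqrt (Real.sqrt lam) := by
    rw [Real.lt_sqrt (by norm_num)]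
    simpa using hsl
  have hq0 : 0 < (Real.sqrt (Real.sqrt lam))⁻¹ := by positivity
  have hq1 : (Real.sqrt (Real.sqrt lam))⁻¹ < 1 := inv_lt_one_of_one_lt₀ hssl
  have he0 : 0 < Real.exp (-1) := Real.exp_pos _
  have he1 : Real.exp (-1) < 1 := by rw [Real.exp_lt_one_iff]; norm_num
  have hr0 : 0 < max (Real.sqrt (Real.sqrt lam))⁻¹ (Real.exp (-1)) := lt_max_of_lt_left hq0
  refine ⟨_, max (Real.sqrt (Real.sqrt lam))⁻¹ (Real.exp (-1)),
    Real.sqrt (max (Real.sqrt (Real.sqrt lam))⁻¹ (Real.exp (-1))), hq0, hq1, hr0.le,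
    Real.sqrt_pos.2 hr0, ?_, Real.mul_self_sqrt hr0.le, fun D => ⟨?_, ?_, ?_⟩⟩
  · rw [Real.sqrt_lt' one_pos]
    simpa using max_lt hq1 he1
  · unfold wD
    rw [inv_pow, inv_pow]
    congr 1
    rw [← pow_mul, mul_comm D 2, pow_mul, Real.sq_sqrt (Real.sqrt_nonneg _)]
  · exact pow_le_pow_left₀ hq0.le (le_max_left _ _) D
  · have e1 : eD D = Real.exp (-1) ^ D := by
      unfold eD
      rw [← Real.exp_nat_mul]
      congr 1
      ring
    rw [e1]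
    exact pow_le_pow_left₀ he0.le (le_max_right _ _) D

theorem h_bound {s2 : ℝ} (hb : 0 < b) (hx : x = (D : ℝ) + 1)
    (hs : s2 = Real.sqrt ((2 * D : ℕ) : ℝ)) :
    0 ≤ s2 ∧ s2 ≤ 2 * x ∧ 0 ≤ s2 * (1 + 2 * x / b) ∧
      s2 * (1 + 2 * x / b) ≤ (2 * (1 + 2 / b)) * x ^ 2 := by
  have hx1 : 1 ≤ x := by
    rw [hx]
    have : (0 : ℝ) ≤ D := Nat.cast_nonneg D
    linarith
  have hx0 : 0 ≤ x := by linarith
  have bs2 : s2 ≤ 2 * x := by
    rw [hs, Real.sqrt_le_left (by positivity)]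
    push_cast
    rw [hx]
    nlinarith [(Nat.cast_nonneg D : (0 : ℝ) ≤ D)]
  have bs20 : 0 ≤ s2 := by rw [hs]; exact Real.sqrt_nonneg _
  refine ⟨bs20, bs2, by positivity, ?_⟩
  have h2 : 1 + 2 * x / b ≤ x * (1 + 2 / b) := by
    have e1 : x * (1 + 2 / b) = x + 2 * x / b := by ring
    rw [e1]
    linarith
  calc s2 * (1 + 2 * x / b) ≤ (2 * x) * (x * (1 + 2 / b)) :=
        mul_le_mul bs2 h2 (by positivity) (by positivity)
    _ = (2 * (1 + 2 / b)) * x ^ 2 := by ring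

/-- the splitting of the final inequality -/
theorem split_final {δ η Z : ℝ} {d α β : Fin n → ℝ} (hδ : 0 < δ) (h0 : 0 < η) (h1 : η < 1)
    (hd : ∀ j, 0 ≤ d j) (hα : ∀ j, 0 ≤ α j) (hβ : ∀ j, 0 ≤ β j)
    (h : δ * ∑ j, d j + (1 + δ) * δ * ∑ j, (η * α j + (1 - η) * β j) ≤ Z) (j : Fin n) :
    d j ≤ Z / δ ∧ α j ≤ Z / (δ * η) ∧ β j ≤ Z / (δ * (1 - η)) := by
  have hη' : 0 < 1 - η := by linarith
  have an : ∀ j, 0 ≤ η * α j + (1 - η) * β j := fun j =>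
    add_nonneg (mul_nonneg h0.le (hα j)) (mul_nonneg hη'.le (hβ j))
  have S1 : 0 ≤ ∑ j, d j := Finset.sum_nonneg fun j _ => hd j
  have S2 : 0 ≤ ∑ j, (η * α j + (1 - η) * β j) := Finset.sum_nonneg fun j _ => an j
  have u1 := Finset.single_le_sum (f := d) (fun j _ => hd j) (Finset.mem_univ j)
  have u2 := Finset.single_le_sum (f := fun j => η * α j + (1 - η) * β j) (fun j _ => an j)
    (Finset.mem_univ j)
  have t1 : 0 ≤ (1 + δ) * δ * ∑ j, (η * α j + (1 - η) * β j) := mul_nonneg (by positivity) S2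
  have t2 : 0 ≤ δ * ∑ j, d j := mul_nonneg hδ.le S1
  have t3 : δ * ∑ j, (η * α j + (1 - η) * β j) ≤
      (1 + δ) * δ * ∑ j, (η * α j + (1 - η) * β j) := by
    refine mul_le_mul_of_nonneg_right ?_ S2
    nlinarith
  have t4 := mul_le_mul_of_nonneg_left u1 hδ.le
  have t5 := mul_le_mul_of_nonneg_left u2 hδ.le
  have t6 : 0 ≤ δ * ((1 - η) * β j) := mul_nonneg hδ.le (mul_nonneg hη'.le (hβ j))
  have t7 : 0 ≤ δ * (η * α j) := mul_nonneg hδ.le (mul_nonneg h0.le (hα j))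
  refine ⟨?_, ?_, ?_⟩
  · rw [le_div_iff₀ hδ]
    linarith
  · rw [le_div_iff₀ (by positivity)]
    linarith
  · rw [le_div_iff₀ (by positivity)]
    linarith

end scal

end MZ

open MZ

theorem thm_MAINZ (hRAW : S_RAW) (hLG : S_LG) (hHB : S_HB) (hCARD : S_CARD) (hLOW : S_LOW)
    (hPEN : S_PEN) (hEB : S_EB) : S_MAIN := by
  intro n η NA NB δ lam h0 h1 hNA hNB hδ hl hlA hlB
  obtain ⟨K₀, hK₀, hEB⟩ := hEB n η NA NB δ lam h0 h1 hNA hNB hδ hl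
  obtain ⟨CA, hCA, hPA⟩ := hPEN n NA lam hNA hl hlA
  obtain ⟨CB, hCB, hPB⟩ := hPEN n NB lam hNB hl hlB
  have hη' : 0 < 1 - η := by linarith
  have hM0 : 0 < η * NA + (1 - η) * NB := by positivity
  have hbM := bb_pos hM0
  obtain ⟨q, r, ρ, hq0, hq1, hr0, hρ0, hρ1, hρr, hrate⟩ := rates hl
  obtain ⟨B₀, hB₀, hB₀'⟩ := poly_bdd (n + 3) hρ0.le hρ1
  have hm : 0 ≤ η * NA + (1 - η) * NB + |NB - NA| := by positivity
  set G := GZ n CA CB NA NB (bb (η * NA + (1 - η) * NB)) (η * NA + (1 - η) * NB + |NB - NA|) K₀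
    with hG
  have hG0 : 0 ≤ G := GZ_nonneg hCA hCB hNA hNB hbM hm
  set Z := (1 + δ) * (G * B₀) with hZ
  have hZ0 : 0 ≤ Z := by positivity
  refine ⟨K₀ + Z / δ + Z / (δ * η) + Z / (δ * (1 - η)), ρ, by positivity, hρ0, hρ1, ?_⟩
  intro D hD
  obtain ⟨A, B, C, hA, hB, hC, trA, trB, hCeq, hmin, hraw⟩ :=
    hRAW n η NA NB δ lam h0 h1 hNA hNB hδ hl D
  have dA : IsDM A := ⟨hA.posSemidef, trA⟩
  have dB : IsDM B := ⟨hB.posSemidef, trB⟩
  have dC := isDM_outp h0.le h1.le D dA dB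
  obtain ⟨eA, eB, mA, mB⟩ := hEB D hD A B dA dB hmin
  obtain ⟨lowA1, -, -, lowA4, -, -⟩ := hLOW n D A dA
  obtain ⟨lowB1, -, -, lowB4, -, -⟩ := hLOW n D B dB
  obtain ⟨-, lowC2, -, -, -, -⟩ := hLOW n (2 * D) _ dC
  obtain ⟨hwq, hqr, her⟩ := hrate D
  have hx1 : (1 : ℝ) ≤ (D : ℝ) + 1 := by
    have : (0 : ℝ) ≤ D := Nat.cast_nonneg D
    linarith
  have hx0 : (0 : ℝ) ≤ (D : ℝ) + 1 := by linarith
  have hLGD := (hLG (Ct n (2 * D)) D _ C dC hCeq).2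
  obtain ⟨bs20, bs2, bh0, bh⟩ := h_bound (D := D) (x := (D : ℝ) + 1)
    (s2 := Real.sqrt ((2 * D : ℕ) : ℝ)) hbM rfl rfl
  have hHBj := fun j => hHB n (2 * D) j C ((D : ℝ) + 1) (bb (η * NA + (1 - η) * NB))
    (Real.sqrt ((2 * D : ℕ) : ℝ) * (1 + 2 * ((D : ℝ) + 1) / bb (η * NA + (1 - η) * NB)))
    hC hx0 hbM hLGD rfl
  have key := hraw _ _ hx0 bh0 hLGD (fun j => (hHBj j).1)
  have bcard : (Fintype.card (Ct n (2 * D)) : ℝ) ≤ 2 ^ n * ((D : ℝ) + 1) ^ n := by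
    refine (hCARD n (2 * D)).trans ?_
    rw [← mul_pow]
    refine pow_le_pow_left₀ (by positivity) ?_ n
    push_cast
    linarith
  have tA : ∀ j, (A * tp (low D j)).trace.re ≤ ((D : ℝ) + 1) ^ 2 * (K₀ * (q ^ D) ^ 2) := fun j =>
    tp_bound hl rfl hwq hK₀.le (lowA4 j lam hl) mA
  have tB : ∀ j, (B * tp (low D j)).trace.re ≤ ((D : ℝ) + 1) ^ 2 * (K₀ * (q ^ D) ^ 2) := fun j =>
    tp_bound hl rfl hwq hK₀.le (lowB4 j lam hl) mB
  have hw0 : 0 ≤ wD lam D := by rw [hwq]; positivity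
  have he0 : 0 ≤ eD D := (Real.exp_pos _).le
  have T1 := T1_bound (n := n) hCA hw0 (hPA D A dA) hx1 hq0 hq1 hqr hr0 hwq
  have T2 := T1_bound (n := n) hCB hw0 (hPB D B dB) hx1 hq0 hq1 hqr hr0 hwq
  have T3 := T3_bound hNA hbM hx1 hK₀.le hq0 hqr hr0
    (fun j => (lowA1 j).trans (by linarith)) tA
  have T4 := T3_bound hNB hbM hx1 hK₀.le hq0 hqr hr0
    (fun j => (lowB1 j).trans (by linarith)) tB
  have T5 := T5_bound bh bh0 hm (by positivity) hx1 hK₀.le hq0 hqr hr0 tA tB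
  have T6s : |∑ j, ((low (2 * D) j)ᴴ * ladH (bb (η * NA + (1 - η) * NB)) (low (2 * D) j)
      C).trace.re| ≤ n * ((Fintype.card (Ct n (2 * D)) : ℝ) * (Real.sqrt ((2 * D : ℕ) : ℝ) *
      (Real.sqrt ((2 * D : ℕ) : ℝ) * (1 + 2 * ((D : ℝ) + 1) /
        bb (η * NA + (1 - η) * NB))))) := by
    have s1 := (Finset.abs_sum_le_sum_abs (fun j => ((low (2 * D) j)ᴴ *
      ladH (bb (η * NA + (1 - η) * NB)) (low (2 * D) j) C).trace.re) Finset.univ).trans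
      (Finset.sum_le_sum fun j _ => (hHBj j).2)
    rw [Finset.sum_const, Finset.card_univ, Fintype.card_fin, nsmul_eq_mul] at s1
    exact s1
  have T6 := T6_bound her he0 (abs_nonneg _) T6s bcard (Nat.cast_nonneg _) bs2 bs20 bh bh0 hr0 hx1
  have T7 := T7_bound her he0 bcard (Nat.cast_nonneg _)
    (g := fun j => ‖(outp (bsW n η D) A B * low (2 * D) j).trace‖ ^ 2)
    (fun j => (lowC2 j).trans ((enr_le dC).trans (by push_cast; linarith)))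
    (fun j => sq_nonneg _) hr0 hx1
  have hPρ : G * (((D : ℝ) + 1) ^ (n + 3) * r ^ D) ≤ G * B₀ * ρ ^ D := by
    rw [mul_assoc]
    refine mul_le_mul_of_nonneg_left ?_ hG0
    calc ((D : ℝ) + 1) ^ (n + 3) * r ^ D = (((D : ℝ) + 1) ^ (n + 3) * ρ ^ D) * ρ ^ D := by
          rw [← hρr, mul_pow]
          ring
      _ ≤ B₀ * ρ ^ D := mul_le_mul_of_nonneg_right (hB₀' D) (by positivity)
  have hsum := add_le_add (add_le_add (add_le_add (add_le_add (add_le_add (add_le_add T1 T2) T3)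
    T4) T5) T6) T7
  rw [← GZ_mul, ← hG] at hsum
  have total := key.trans (mul_le_mul_of_nonneg_left (hsum.trans hPρ)
    (by positivity : (0 : ℝ) ≤ 1 + δ))
  have e1 : (1 + δ) * (G * B₀ * ρ ^ D) = Z * ρ ^ D := by rw [hZ]; ring
  rw [e1] at total
  have hρD : 0 ≤ ρ ^ D := by positivity
  have fin := split_final hδ h0 h1 (fun j => dform_nonneg hC _) (fun j => sq_nonneg _)
    (fun j => sq_nonneg _) total
  have p1 : 0 ≤ Z / δ := by positivity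
  have p2 : 0 ≤ Z / (δ * η) := by positivity
  have p3 : 0 ≤ Z / (δ * (1 - η)) := by positivity
  refine ⟨A, B, C, hA, hB, hC, trA, trB, hCeq, hmin, ?_, ?_, fun j => ?_, fun j => ?_,
    fun j => ?_⟩
  · exact eA.trans (by linarith)
  · exact eB.trans (by linarith)
  · refine (fin j).2.1.trans ?_
    rw [mul_div_right_comm]
    exact mul_le_mul_of_nonneg_right (by linarith) hρD
  · refine (fin j).2.2.trans ?_
    rw [mul_div_right_comm]
    exact mul_le_mul_of_nonneg_right (by linarith) hρD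
  · refine (fin j).1.trans ?_
    rw [mul_div_right_comm]
    exact mul_le_mul_of_nonneg_right (by linarith) hρD

end

end Vale.Agent.P369.FD
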